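import Mathlib

namespace Vale.Agent.P076

open Filter Topology

lemma gap (T : ℕ → ℝ → ℂ) (F : ℝ → ℂ) (R P : ℕ → ℝ) (Λ c0 : ℝ) (hΛ : 180 ≤ Λ * c0)
    (hΛ4 : 4 ≤ Λ) (hP : ∀ k, Λ * 2 ^ k ≤ P k) (hPR : ∀ k, P k ^ 2 ≤ R k)
    (hg : ∀ j k, k < j → Λ * 2 ^ j * R k ^ 2 ≤ P j)
    (hs : ∀ t, HasSum (fun j => T j t) (F t))
    (hdec : ∀ j t, 0 < t → ‖T j t‖ ≤ 10 / (t * R j))
    (hlip : ∀ j t s, ‖T j t - T j s‖ ≤ |t - s| * (4 * R j ^ 2))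
    (k : ℕ) (t : ℝ) (h1 : 1 / (2 * R k ^ 2) ≤ t) (h2 : t ≤ 1 / P k) (h3 : c0 ≤ ‖T k t‖) :
    c0 / 2 ≤ ‖F t - F (1 / P k)‖ := by
  have hΛ0 : 0 < Λ := by linarith
  have hP4 : ∀ k, Λ ≤ P k := fun k =>
    (le_mul_of_one_le_right hΛ0.le (one_le_pow₀ (by norm_num))).trans (hP k)
  have hP0 : ∀ k, 0 < P k := fun k => hΛ0.trans_le (hP4 k)
  have hPR' : ∀ k, P k ≤ R k := fun k =>
    (le_self_pow₀ (by linarith [hP4 k]) (by norm_num)).trans (hPR k)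
  have hR0 : ∀ k, 0 < R k := fun k => (hP0 k).trans_le (hPR' k)
  have ht0 : 0 < t := lt_of_lt_of_le (by have := hR0 k; positivity) h1
  have hτ0 : 0 < 1 / P k := ht0.trans_le h2
  have hsum := (hs t).sub (hs (1 / P k))
  have hb : ∀ j, ‖(if j = k then 0 else T j t - T j (1 / P k) : ℂ)‖
      ≤ 40 / Λ * (1 / 2 : ℝ) ^ j := by
    intro j
    have he : 40 / Λ * (1 / 2 : ℝ) ^ j = 40 / (Λ * 2 ^ j) := by
      rw [one_div, inv_pow]; field_simp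
    rw [he]
    split_ifs with hj
    · rw [norm_zero]; positivity
    rcases lt_or_gt_of_ne hj with hj | hj
    · refine (hlip j _ _).trans ?_
      have h4 : |t - 1 / P k| ≤ 1 / P k := abs_le.2 ⟨by linarith, by linarith⟩
      have h5 := hg k j hj
      have h6 : Λ * 2 ^ j ≤ Λ * 2 ^ k :=
        mul_le_mul_of_nonneg_left (pow_le_pow_right₀ (by norm_num) hj.le) hΛ0.le
      have h7 : Λ * 2 ^ j * R j ^ 2 ≤ P k :=
        (mul_le_mul_of_nonneg_right h6 (sq_nonneg _)).trans h5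
      refine (mul_le_mul_of_nonneg_right h4 (by positivity)).trans ?_
      rw [div_mul_eq_mul_div, one_mul, div_le_div_iff₀ (hP0 k) (by positivity)]
      have := (hP0 k).le
      linarith
    · have h5 := hg j k hj
      have h6 : 10 / (t * R j) ≤ 20 / (Λ * 2 ^ j) := by
        rw [div_le_div_iff₀ (mul_pos ht0 (hR0 j)) (by positivity)]
        have h7 : 1 ≤ t * (2 * R k ^ 2) := by
          rwa [div_le_iff₀ (by have := hR0 k; positivity)] at h1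
        have h8 : Λ * 2 ^ j * 1 ≤ Λ * 2 ^ j * (t * (2 * R k ^ 2)) :=
          mul_le_mul_of_nonneg_left h7 (by positivity)
        have h9 : t * (Λ * 2 ^ j * R k ^ 2) ≤ t * R j :=
          mul_le_mul_of_nonneg_left (h5.trans (hPR' j)) ht0.le
        linarith
      have h7 : 10 / (1 / P k * R j) ≤ 10 / (t * R j) :=
        div_le_div_of_nonneg_left (by norm_num) (mul_pos ht0 (hR0 j))
          (mul_le_mul_of_nonneg_right h2 (hR0 j).le)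
      have h8 := hdec j t ht0
      have h9 := hdec j _ hτ0
      have h10 : 40 / (Λ * 2 ^ j) = 20 / (Λ * 2 ^ j) + 20 / (Λ * 2 ^ j) := by ring
      exact (norm_sub_le _ _).trans (by linarith)
  have hgeo : HasSum (fun j : ℕ => 40 / Λ * (1 / 2 : ℝ) ^ j) (40 / Λ * 2) :=
    hasSum_geometric_two.mul_left _
  have hn := tsum_of_norm_bounded hgeo hb
  have hsp := hsum.summable.tsum_eq_add_tsum_ite k
  rw [hsum.tsum_eq] at hsp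
  have hself : ‖T k (1 / P k)‖ ≤ 10 / Λ := by
    refine (hdec k _ hτ0).trans (div_le_div_of_nonneg_left (by norm_num) hΛ0 ?_)
    rw [div_mul_eq_mul_div, one_mul, le_div_iff₀ (hP0 k)]
    have := mul_le_mul_of_nonneg_right (hP4 k) (hP0 k).le
    have h5 := hPR k
    rw [sq] at h5
    linarith
  have h4 : T k t = (F t - F (1 / P k)) + T k (1 / P k)
      - ∑' j, (if j = k then 0 else T j t - T j (1 / P k) : ℂ) := by
    rw [hsp]; ring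
  have h5 : ‖T k t‖ ≤ ‖F t - F (1 / P k)‖ + 10 / Λ + 40 / Λ * 2 := by
    rw [h4]
    exact (norm_sub_le _ _).trans (add_le_add ((norm_add_le _ _).trans (by linarith)) hn)
  have h6 : 10 / Λ + 40 / Λ * 2 ≤ c0 / 2 := by
    have : 10 / Λ + 40 / Λ * 2 = 90 / Λ := by ring
    rw [this, div_le_iff₀ hΛ0]; linarith
  linarith

theorem nocv (T : ℕ → ℝ → ℝ → ℂ) (F : ℝ → ℝ → ℂ) (R P : ℕ → ℝ) (Λ c0 : ℝ) (κ : ℂ)
    (hκ : κ ≠ 0) (hc0 : 0 < c0) (hΛ : 180 ≤ Λ * c0)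
    (hΛ4 : 4 ≤ Λ) (hP : ∀ k, Λ * 2 ^ k ≤ P k) (hPR : ∀ k, P k ^ 2 ≤ R k)
    (hg : ∀ j k, k < j → Λ * 2 ^ j * R k ^ 2 ≤ P j)
    (hs : ∀ a, 0 < a → ∀ t, HasSum (fun j => T j a t) (F a t))
    (hdec : ∀ j a t, 0 < a → 0 < t → ‖T j a t‖ ≤ 10 / (t * R j))
    (hlip : ∀ j a t s, 0 < a → ‖T j a t - T j a s‖ ≤ |t - s| * (4 * R j ^ 2))
    (hlow : ∀ N, ∃ k, N ≤ k ∧ ∃ t, 1 / (2 * R k ^ 2) ≤ t ∧ t ≤ 2 / R k ∧
      ∀ a, 0 ≤ a → a * (4 * R k ^ 2) ≤ 1 → c0 ≤ ‖T k a t‖) (c : ℂ) :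
    ¬ ∃ U : ℝ → ℂ, (∀ᶠ t in 𝓝[>] (0 : ℝ), Tendsto (fun a => κ * F a t) (𝓝[>] 0) (𝓝 (U t)))
      ∧ Tendsto U (𝓝[>] 0) (𝓝 c) := by
  rintro ⟨U, hU1, hU2⟩
  have hκ0 : 0 < ‖κ‖ := norm_pos_iff.2 hκ
  have hη : 0 < ‖κ‖ * c0 / 4 := by positivity
  have hU3 := hU1.and (Metric.tendsto_nhds.1 hU2 _ hη)
  obtain ⟨δ, hδ, hδ1⟩ := (nhdsGT_basis (0 : ℝ)).eventually_iff.1 hU3
  obtain ⟨N, hN⟩ := pow_unbounded_of_one_lt (1 / δ) (by norm_num : (1 : ℝ) < 2)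
  obtain ⟨k, hk, t, h1, h2, h3⟩ := hlow N
  have hΛ0 : 0 < Λ := by linarith
  have hP4 : Λ ≤ P k :=
    (le_mul_of_one_le_right hΛ0.le (one_le_pow₀ (by norm_num))).trans (hP k)
  have hP0 : 0 < P k := by linarith
  have hR0 : 0 < R k := lt_of_lt_of_le (by positivity) (hPR k)
  have ht0 : 0 < t := lt_of_lt_of_le (by positivity) h1
  have h4 : t ≤ 1 / P k := by
    refine h2.trans ?_
    rw [div_le_div_iff₀ hR0 hP0]
    have h5 := hPR k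
    nlinarith
  have h5 : 1 / P k < δ := by
    have h6 : (2 : ℝ) ^ N ≤ 2 ^ k := pow_le_pow_right₀ (by norm_num) hk
    have h7 : (2 : ℝ) ^ k ≤ Λ * 2 ^ k := le_mul_of_one_le_left (by positivity) (by linarith)
    have h8 : 1 / δ < P k := by linarith [hP k]
    rw [div_lt_iff₀ hδ] at h8
    rw [div_lt_iff₀ hP0]; linarith
  obtain ⟨e1, e2⟩ := hδ1 (show t ∈ Set.Ioo 0 δ from ⟨ht0, h4.trans_lt h5⟩)
  obtain ⟨e3, e4⟩ := hδ1 (show 1 / P k ∈ Set.Ioo 0 δ from ⟨ht0.trans_le h4, h5⟩)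
  have h6 : ‖κ‖ * c0 / 2 ≤ ‖U t - U (1 / P k)‖ := by
    refine ge_of_tendsto (e1.sub e3).norm ?_
    filter_upwards [Ioo_mem_nhdsGT (show (0 : ℝ) < 1 / (4 * R k ^ 2) by positivity)] with a ha
    have h7 : a * (4 * R k ^ 2) ≤ 1 := ((lt_div_iff₀ (by positivity)).1 ha.2).le
    have h8 := gap (fun j => T j a) (F a) R P Λ c0 hΛ hΛ4 hP hPR hg (hs a ha.1)
      (fun j t => hdec j a t ha.1) (fun j t s => hlip j a t s ha.1) k t h1 h4 (h3 a ha.1.le h7)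
    rw [← mul_sub, norm_mul, mul_div_assoc]
    exact mul_le_mul_of_nonneg_left h8 hκ0.le
  have h7 := dist_triangle_right (U t) (U (1 / P k)) c
  rw [dist_eq_norm] at h7
  linarith

lemma rec_seq (μ : ℕ → ℕ) (e : ℕ) (Λ B : ℝ) (hΛ : 1 ≤ Λ) (w : ℝ → ℝ)
    (hw : Tendsto w atTop (𝓝 0)) :
    ∃ p : ℕ → ℕ, (∀ k, B ≤ 2 ^ p k) ∧ (∀ k, Λ * 2 ^ k ≤ 2 ^ p k) ∧
      (∀ k r, (2 : ℝ) ^ p k ≤ r → w r ≤ (1 / 2) ^ k) ∧
      (∀ j k, k < j → Λ * 2 ^ j * ((2 : ℝ) ^ (μ k + (e + 1) * p k)) ^ 2 ≤ 2 ^ p j) := by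
  have h : ∀ (k : ℕ) (M : ℝ), ∃ p : ℕ, M ≤ 2 ^ p ∧ B ≤ 2 ^ p ∧ Λ * 2 ^ k ≤ 2 ^ p ∧
      ∀ r, (2 : ℝ) ^ p ≤ r → w r ≤ (1 / 2) ^ k := by
    intro k M
    obtain ⟨r0, hr0⟩ := eventually_atTop.1 (hw.eventually (ge_mem_nhds
      (show (0 : ℝ) < (1 / 2) ^ k by positivity)))
    have h2 := tendsto_pow_atTop_atTop_of_one_lt (by norm_num : (1 : ℝ) < 2)
    obtain ⟨p, hp⟩ := ((h2.eventually_ge_atTop M).and ((h2.eventually_ge_atTop B).and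
      ((h2.eventually_ge_atTop (Λ * 2 ^ k)).and (h2.eventually_ge_atTop r0)))).exists
    exact ⟨p, hp.1, hp.2.1, hp.2.2.1, fun r hr => hr0 r (hp.2.2.2.trans hr)⟩
  choose φ h1 h2 h3 h4 using h
  obtain ⟨M, hM⟩ : ∃ M : ℕ → ℝ, ∀ k, M (k + 1) = M k
      + ((2 : ℝ) ^ (μ k + (e + 1) * φ k (Λ * 2 ^ k * M k))) ^ 2 ∧ 0 ≤ M 0 :=
    ⟨fun n => Nat.rec 0 (fun k m => m
      + ((2 : ℝ) ^ (μ k + (e + 1) * φ k (Λ * 2 ^ k * m))) ^ 2) n, fun _ => ⟨rfl, le_rfl⟩⟩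
  have hmono : Monotone M := monotone_nat_of_le_succ fun k => by
    rw [(hM k).1]; exact le_add_of_nonneg_right (sq_nonneg _)
  refine ⟨fun k => φ k (Λ * 2 ^ k * M k), fun k => h2 _ _, fun k => h3 _ _,
    fun k r hr => h4 _ _ r hr, fun j k hk => le_trans ?_ (h1 _ _)⟩
  refine mul_le_mul_of_nonneg_left ?_ (by positivity)
  have h5 := hmono (show k + 1 ≤ j from hk)
  have h6 := (hM 0).2.trans (hmono (Nat.zero_le k))
  rw [(hM k).1] at h5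
  linarith

end Vale.Agent.P076
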