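import Vale.Agent.P076.Piece

namespace Vale.Agent.P076

open MeasureTheory Filter Topology Complex

lemma nsq_nonneg {n : ℕ} (ξ : Fin n → ℝ) : 0 ≤ nsq ξ := Finset.sum_nonneg fun _ _ => sq_nonneg _

lemma nsq_cont {n : ℕ} : Continuous (nsq : (Fin n → ℝ) → ℝ) := by
  unfold nsq; fun_prop

lemma ker_cont {n : ℕ} (a t : ℝ) (y : Fin n → ℝ) : Continuous (ker a t y) := by
  unfold ker nsq; fun_prop

lemma ker_prod {n : ℕ} (a t : ℝ) (y ξ : Fin n → ℝ) :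
    ker a t y ξ = ∏ i, k1 a t (y i) (ξ i) := by
  unfold ker k1 nsq
  rw [← Complex.exp_sum]
  congr 1
  push_cast
  simp only [Finset.mul_sum, ← Finset.sum_sub_distrib]
  exact Finset.sum_congr rfl fun i _ => by ring

lemma norm_ker {n : ℕ} (a t : ℝ) (y ξ : Fin n → ℝ) :
    ‖ker a t y ξ‖ = Real.exp (-(a * nsq ξ)) := by
  unfold ker
  rw [Complex.norm_exp]
  congr 1
  simp only [sub_re, mul_re, mul_im, I_re, I_im, ofReal_re, ofReal_im]
  ring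

lemma norm_ker_le {n : ℕ} {a : ℝ} (ha : 0 ≤ a) (t : ℝ) (y ξ : Fin n → ℝ) :
    ‖ker a t y ξ‖ ≤ 1 := by
  rw [norm_ker]
  exact Real.exp_le_one_iff.2 (neg_nonpos.2 (mul_nonneg ha (nsq_nonneg ξ)))

lemma ker_mul {n : ℕ} (a t : ℝ) (x c ξ : Fin n → ℝ) :
    ker a t x ξ * ker 0 0 (-c) ξ = ker a t (x - c) ξ := by
  unfold ker
  rw [← Complex.exp_add]
  congr 1
  simp only [Pi.neg_apply, Pi.sub_apply, sub_mul, neg_mul, Finset.sum_sub_distrib,
    Finset.sum_neg_distrib]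
  push_cast
  ring

lemma ker_lip {n : ℕ} {a : ℝ} (ha : 0 ≤ a) (t s : ℝ) (y ξ : Fin n → ℝ) :
    ‖ker a t y ξ - ker a s y ξ‖ ≤ |t - s| * nsq ξ := by
  have h1 : ker a t y ξ - ker a s y ξ
      = ker a s y ξ * (Complex.exp (I * (((s - t) * nsq ξ : ℝ) : ℂ)) - 1) := by
    rw [mul_sub, mul_one]
    congr 1
    unfold ker
    rw [← Complex.exp_add]
    congr 1
    push_cast
    ring
  rw [h1, norm_mul]
  have h2 := Real.norm_exp_I_mul_ofReal_sub_one_le (x := (s - t) * nsq ξ)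
  rw [Real.norm_eq_abs, abs_mul, abs_of_nonneg (nsq_nonneg ξ), abs_sub_comm] at h2
  calc _ ≤ 1 * (|t - s| * nsq ξ) := mul_le_mul (norm_ker_le ha s y ξ) h2 (norm_nonneg _) zero_le_one
    _ = _ := one_mul _

lemma ker_lipa {n : ℕ} {a : ℝ} (ha : 0 ≤ a) (t : ℝ) (y ξ : Fin n → ℝ) :
    ‖ker a t y ξ - ker 0 t y ξ‖ ≤ a * nsq ξ := by
  have h1 : ker a t y ξ - ker 0 t y ξ
      = ker 0 t y ξ * ((Real.exp (-(a * nsq ξ)) - 1 : ℝ) : ℂ) := by
    push_cast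
    rw [mul_sub, mul_one]
    congr 1
    unfold ker
    rw [← Complex.exp_add]
    congr 1
    push_cast
    ring
  rw [h1, norm_mul, Complex.norm_real, Real.norm_eq_abs]
  have h3 := mul_nonneg ha (nsq_nonneg ξ)
  have h2 : |Real.exp (-(a * nsq ξ)) - 1| ≤ a * nsq ξ := by
    have h4 := Real.add_one_le_exp (-(a * nsq ξ))
    have h5 : Real.exp (-(a * nsq ξ)) ≤ 1 := Real.exp_le_one_iff.2 (neg_nonpos.2 h3)
    exact abs_le.2 ⟨by linarith, by linarith⟩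
  calc _ ≤ 1 * (a * nsq ξ) := mul_le_mul (norm_ker_le le_rfl t y ξ) h2 (abs_nonneg _) zero_le_one
    _ = _ := one_mul _

lemma J_prod {n : ℕ} (a t : ℝ) (y : Fin n → ℝ) (S : Fin n → Set ℝ) :
    ∫ ξ in Set.pi Set.univ S, ker a t y ξ = ∏ i, ∫ η in S i, k1 a t (y i) η := by
  simp only [ker_prod]
  rw [volume_pi, Measure.restrict_pi_pi]
  exact integral_fintype_prod_eq_prod (fun i η => k1 a t (y i) η)

lemma vol_pi {n : ℕ} (S : Fin n → Set ℝ) :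
    volume.real (Set.pi Set.univ S) = ∏ i, volume.real (S i) := by
  simp only [Measure.real, volume_pi_pi, ENNReal.toReal_prod]

lemma vol_pi_ne {n : ℕ} {S : Fin n → Set ℝ} (h : ∀ i, volume (S i) ≠ ⊤) :
    volume (Set.pi Set.univ S) ≠ ⊤ := by
  rw [volume_pi_pi]; exact ENNReal.prod_ne_top fun i _ => h i

lemma ker_intOn {n : ℕ} {a : ℝ} (ha : 0 ≤ a) (t : ℝ) (y : Fin n → ℝ) {A : Set (Fin n → ℝ)}
    (hA : volume A ≠ ⊤) : IntegrableOn (ker a t y) A :=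
  Measure.integrableOn_of_bounded (M := 1) hA (ker_cont a t y).aestronglyMeasurable
    (Eventually.of_forall fun ξ => norm_ker_le ha t y ξ)

/-- normalised block integral -/
noncomputable def blk {n : ℕ} (S : Fin n → Set ℝ) (a t : ℝ) (y : Fin n → ℝ) : ℂ :=
  ((volume.real (Set.pi Set.univ S))⁻¹ : ℝ) * ∫ ξ in Set.pi Set.univ S, ker a t y ξ

variable {d : ℕ} {C ρ R : ℝ} {S : Fin (d + 1) → Set ℝ}

lemma Pc.vpos (h : Pc d C ρ R S) : 0 < volume.real (Set.pi Set.univ S) := by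
  rw [vol_pi]; exact Finset.prod_pos fun i _ => h.2.2.1 i

lemma Pc.norm_blk_le (h : Pc d C ρ R S) {z : ℂ} {M : ℝ}
    (hz : ‖z‖ ≤ M * volume.real (Set.pi Set.univ S)) :
    ‖(((volume.real (Set.pi Set.univ S))⁻¹ : ℝ) : ℂ) * z‖ ≤ M := by
  have hv := h.vpos
  rw [norm_mul, Complex.norm_real, Real.norm_of_nonneg (inv_nonneg.2 hv.le), inv_mul_le_iff₀ hv]
  linarith

lemma Pc.dec (h : Pc d C ρ R S) (hR : 0 < R) {a t : ℝ} (ha : 0 ≤ a) (ht : 0 < t)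
    {y : Fin (d + 1) → ℝ} (hy : |y 0| ≤ 2) : ‖blk S a t y‖ ≤ 10 / (t * R) := by
  have htR := mul_pos ht hR
  refine h.norm_blk_le ?_
  rw [J_prod, vol_pi, norm_prod, Fin.prod_univ_succ, Fin.prod_univ_succ, ← mul_assoc]
  refine mul_le_mul ?_ (Finset.prod_le_prod (fun i _ => norm_nonneg _)
    fun i _ => triv1 a t _ ha (h.2.1 _)) (Finset.prod_nonneg fun i _ => norm_nonneg _)
    (mul_nonneg (by positivity) measureReal_nonneg)
  rcases le_total 2 (t * R) with h2 | h2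
  · obtain ⟨θ, h3, h4, h5⟩ := h.2.2.2.2.2.1
    rw [h5, Real.volume_real_Ico, add_sub_cancel_left, max_eq_left (by linarith)]
    refine (dec1 a t (y 0) R θ ha ht hR (by linarith) h4 (hy.trans h2)).trans ?_
    have h6 : 10 / (t * R) * (1 / 2) ≤ 10 / (t * R) * θ :=
      mul_le_mul_of_nonneg_left h3 (by positivity)
    have h7 : 5 / (t * R) = 10 / (t * R) * (1 / 2) := by ring
    linarith
  · refine (triv1 a t _ ha (h.2.1 _)).trans (le_mul_of_one_le_left measureReal_nonneg ?_)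
    rw [le_div_iff₀ htR]; linarith

lemma Pc.meas (h : Pc d C ρ R S) : MeasurableSet (Set.pi Set.univ S) :=
  MeasurableSet.univ_pi h.1

lemma Pc.lip (h : Pc d C ρ R S) {a : ℝ} (ha : 0 ≤ a) (t s : ℝ) (y : Fin (d + 1) → ℝ) :
    ‖blk S a t y - blk S a s y‖ ≤ |t - s| * (4 * R ^ 2) := by
  have hV := vol_pi_ne h.2.1
  unfold blk
  rw [← mul_sub, ← integral_sub (ker_intOn ha t y hV) (ker_intOn ha s y hV)]
  refine h.norm_blk_le (norm_setIntegral_le_of_norm_le_const (lt_top_iff_ne_top.2 hV)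
    fun ξ hξ => (ker_lip ha t s y ξ).trans ?_)
  exact mul_le_mul_of_nonneg_left (h.2.2.2.2.1 ξ hξ).2.le (abs_nonneg _)

lemma Pc.lipa (h : Pc d C ρ R S) {a : ℝ} (ha : 0 ≤ a) (t : ℝ) (y : Fin (d + 1) → ℝ) :
    ‖blk S a t y - blk S 0 t y‖ ≤ a * (4 * R ^ 2) := by
  have hV := vol_pi_ne h.2.1
  unfold blk
  rw [← mul_sub, ← integral_sub (ker_intOn ha t y hV) (ker_intOn le_rfl t y hV)]
  refine h.norm_blk_le (norm_setIntegral_le_of_norm_le_const (lt_top_iff_ne_top.2 hV)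
    fun ξ hξ => (ker_lipa ha t y ξ).trans ?_)
  exact mul_le_mul_of_nonneg_left (h.2.2.2.2.1 ξ hξ).2.le ha

lemma Pc.tend (h : Pc d C ρ R S) (t : ℝ) (y : Fin (d + 1) → ℝ) :
    Tendsto (fun a => blk S a t y) (𝓝[>] 0) (𝓝 (blk S 0 t y)) := by
  rw [tendsto_iff_norm_sub_tendsto_zero]
  have h1 : Tendsto (fun a : ℝ => a * (4 * R ^ 2)) (𝓝[>] 0) (𝓝 0) := by
    have : Tendsto (fun a : ℝ => a * (4 * R ^ 2)) (𝓝 0) (𝓝 (0 * (4 * R ^ 2))) :=
      (continuous_id.mul continuous_const).tendsto 0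
    rw [zero_mul] at this
    exact this.mono_left nhdsWithin_le_nhds
  refine squeeze_zero' (Eventually.of_forall fun _ => norm_nonneg _) ?_ h1
  filter_upwards [self_mem_nhdsWithin] with a ha
  exact h.lipa (le_of_lt ha) t y

lemma Pc.low (h : Pc d C ρ R S) {y : Fin (d + 1) → ℝ} (hy : ∀ i, ρ ≤ y i ∧ y i ≤ 2 * ρ) :
    ∃ t, ρ / (2 * R) ≤ t ∧ t ≤ 2 * ρ / R ∧
      ∀ a, 0 ≤ a → a * (4 * R ^ 2) ≤ 1 → (1 / 8 : ℝ) ^ (d + 1) ≤ ‖blk S a t y‖ := by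
  obtain ⟨t, h1, h2, h3⟩ := h.2.2.2.2.2.2.2 y hy
  refine ⟨t, h1, h2, fun a ha ha1 => ?_⟩
  have hv := h.vpos
  unfold blk
  rw [norm_mul, Complex.norm_real, Real.norm_of_nonneg (inv_nonneg.2 hv.le), le_inv_mul_iff₀ hv,
    J_prod, vol_pi, norm_prod]
  have h4 : (∏ i, volume.real (S i)) * (1 / 8 : ℝ) ^ (d + 1) = ∏ i, (volume.real (S i) / 8) := by
    rw [Finset.prod_div_distrib]
    simp only [Finset.prod_const, Finset.card_univ, Fintype.card_fin, one_div, inv_pow]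
    rw [div_eq_mul_inv]
  rw [h4]
  refine Finset.prod_le_prod (fun i _ => by positivity) fun i _ => ?_
  obtain ⟨γ, hγ⟩ := h3 i
  exact low1 a t (y i) γ ha (h.1 i) (h.2.1 i) hγ
    fun η hη => (mul_le_mul_of_nonneg_left (h.2.2.2.1 i η hη) ha).trans ha1

end Vale.Agent.P076
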