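import Mathlib

namespace Vale.Agent.P076

open MeasureTheory Filter Topology

/-- squared Euclidean norm -/
def nsq {n : ℕ} (ξ : Fin n → ℝ) : ℝ := ∑ i, ξ i ^ 2

/-- the kernel exp(i x.ξ - i t |ξ|^2 - a |ξ|^2) -/
noncomputable def ker {n : ℕ} (a t : ℝ) (x ξ : Fin n → ℝ) : ℂ :=
  Complex.exp (Complex.I * ((∑ i, x i * ξ i : ℝ) : ℂ) - Complex.I * (t : ℂ) * (nsq ξ : ℂ)
    - (a : ℂ) * (nsq ξ : ℂ))

/-- the Gaussian-regularised evolution of the function with Fourier transform g -/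
noncomputable def reg {n : ℕ} (g : (Fin n → ℝ) → ℂ) (a t : ℝ) (x : Fin n → ℝ) : ℂ :=
  (((2 * Real.pi) ^ n : ℝ) : ℂ)⁻¹ * ∫ ξ, ker a t x ξ * g ξ

/-- the evolution at time t and point x is defined and equals u -/
def IsEvol {n : ℕ} (g : (Fin n → ℝ) → ℂ) (t : ℝ) (x : Fin n → ℝ) (u : ℂ) : Prop :=
  Tendsto (fun a => reg g a t x) (𝓝[>] 0) (𝓝 u)

/-- the evolution at x is defined for small t > 0 and tends to c as t decreases to 0 -/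
def ConvTo {n : ℕ} (g : (Fin n → ℝ) → ℂ) (x : Fin n → ℝ) (c : ℂ) : Prop :=
  ∃ U : ℝ → ℂ, (∀ᶠ t in 𝓝[>] (0 : ℝ), IsEvol g t x (U t)) ∧ Tendsto U (𝓝[>] 0) (𝓝 c)

/-- the Sobolev weight (1 + |ξ|^2)^(s_n), s_n = n / (2 (n + 1)) -/
noncomputable def wt {n : ℕ} (ξ : Fin n → ℝ) : ℝ :=
  (1 + nsq ξ) ^ ((n : ℝ) / (2 * ((n : ℝ) + 1)))

/-- the dyadic shell 2^m ≤ |ξ| < 2^(m+1) -/
def shell (n m : ℕ) : Set (Fin n → ℝ) := {ξ | (4 : ℝ) ^ m ≤ nsq ξ ∧ nsq ξ < (4 : ℝ) ^ (m + 1)}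

end Vale.Agent.P076
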