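import Vale.Agent.P076.Blk
import Vale.Agent.P076.Abs

namespace Vale.Agent.P076

open MeasureTheory Filter Topology Function

variable {n : ℕ}

lemma glue {E : Type*} [NormedAddCommGroup E] [NormedSpace ℝ E] {A : ℕ → Set (Fin n → ℝ)}
    (hm : ∀ k, MeasurableSet (A k)) (hd : Pairwise (Disjoint on A)) {f : (Fin n → ℝ) → E}
    (h0 : ∀ ξ, ξ ∉ ⋃ k, A k → f ξ = 0) {b : ℕ → ℝ} (hb : Summable b)
    (hi : ∀ k, IntegrableOn f (A k) ∧ ∫ ξ in A k, ‖f ξ‖ ≤ b k) :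
    Integrable f ∧ HasSum (fun k => ∫ ξ in A k, f ξ) (∫ ξ, f ξ) := by
  have hI := integrableOn_iUnion_of_summable_integral_norm (fun k => (hi k).1)
    (Summable.of_nonneg_of_le (fun k => integral_nonneg fun _ => norm_nonneg _)
      (fun k => (hi k).2) hb)
  refine ⟨hI.integrable_of_forall_notMem_eq_zero h0, ?_⟩
  rw [← setIntegral_eq_integral_of_forall_compl_eq_zero h0]
  exact hasSum_integral_iUnion hm hd hI

lemma onblk {E : Type*} [NormedAddCommGroup E] {A : Set (Fin n → ℝ)} (hm : MeasurableSet A)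
    (hV : volume A ≠ ⊤) {f : (Fin n → ℝ) → E} (hf : AEStronglyMeasurable f volume) {M : ℝ}
    (hb : ∀ ξ ∈ A, ‖f ξ‖ ≤ M) : IntegrableOn f A ∧ ∫ ξ in A, ‖f ξ‖ ≤ M * volume.real A := by
  have hI : IntegrableOn f A := Measure.integrableOn_of_bounded (M := M) hV hf
    ((ae_restrict_iff' hm).2 (Eventually.of_forall hb))
  refine ⟨hI, ?_⟩
  have := setIntegral_mono_on hI.norm (integrableOn_const (C := M) hV) hm hb
  rwa [setIntegral_const, smul_eq_mul, mul_comm] at this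

/-- gluing functions along disjoint sets -/
noncomputable def gl (A : ℕ → Set (Fin n → ℝ)) (φ : ℕ → (Fin n → ℝ) → ℂ) (ξ : Fin n → ℝ) : ℂ :=
  ∑' k, (A k).indicator (φ k) ξ

lemma gl_hs {A : ℕ → Set (Fin n → ℝ)} (hd : Pairwise (Disjoint on A))
    (φ : ℕ → (Fin n → ℝ) → ℂ) {k : ℕ} {ξ : Fin n → ℝ} (h : ξ ∈ A k) :
    HasSum (fun j => (A j).indicator (φ j) ξ) (φ k ξ) := by
  have := hasSum_single (f := fun j => (A j).indicator (φ j) ξ) k fun j hj =>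
    Set.indicator_of_notMem (fun h' => Set.disjoint_left.1 (hd hj) h' h) _
  simpa only [Set.indicator_of_mem h] using this

lemma gl_in {A : ℕ → Set (Fin n → ℝ)} (hd : Pairwise (Disjoint on A))
    (φ : ℕ → (Fin n → ℝ) → ℂ) {k : ℕ} {ξ : Fin n → ℝ} (h : ξ ∈ A k) : gl A φ ξ = φ k ξ :=
  (gl_hs hd φ h).tsum_eq

lemma gl_z {A : ℕ → Set (Fin n → ℝ)} (φ : ℕ → (Fin n → ℝ) → ℂ) {ξ : Fin n → ℝ}
    (h : ξ ∉ ⋃ k, A k) (j : ℕ) : (A j).indicator (φ j) ξ = 0 :=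
  Set.indicator_of_notMem (fun h' => h (Set.mem_iUnion.2 ⟨j, h'⟩)) _

lemma gl_out {A : ℕ → Set (Fin n → ℝ)} (φ : ℕ → (Fin n → ℝ) → ℂ) {ξ : Fin n → ℝ}
    (h : ξ ∉ ⋃ k, A k) : gl A φ ξ = 0 := by
  simp only [gl, gl_z φ h, tsum_zero]

lemma gl_meas {A : ℕ → Set (Fin n → ℝ)} (hm : ∀ k, MeasurableSet (A k))
    (hd : Pairwise (Disjoint on A)) {φ : ℕ → (Fin n → ℝ) → ℂ} (hφ : ∀ k, Measurable (φ k)) :
    Measurable (gl A φ) := by
  refine measurable_of_tendsto_metrizable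
    (f := fun N ξ => ∑ k ∈ Finset.range N, (A k).indicator (φ k) ξ)
    (fun N => Finset.measurable_sum _ fun k _ => (hφ k).indicator (hm k)) ?_
  refine tendsto_pi_nhds.2 fun ξ => HasSum.tendsto_sum_nat (Summable.hasSum ?_)
  by_cases h : ξ ∈ ⋃ k, A k
  · obtain ⟨k, hk⟩ := Set.mem_iUnion.1 h
    exact (gl_hs hd φ hk).summable
  · simp only [gl_z φ h, summable_zero]

lemma shell_meas (m : ℕ) : MeasurableSet (shell n m) :=
  (measurableSet_le measurable_const nsq_cont.measurable).inter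
    (measurableSet_lt nsq_cont.measurable measurable_const)

lemma shell_eq {m m' : ℕ} {ξ : Fin n → ℝ} (h : ξ ∈ shell n m) (h' : ξ ∈ shell n m') : m = m' := by
  have h1 := (pow_lt_pow_iff_right₀ (by norm_num : (1 : ℝ) < 4)).1 (h.1.trans_lt h'.2)
  have h2 := (pow_lt_pow_iff_right₀ (by norm_num : (1 : ℝ) < 4)).1 (h'.1.trans_lt h.2)
  omega

lemma wt_meas : Measurable (wt : (Fin n → ℝ) → ℝ) := by
  unfold wt
  exact (measurable_const.add nsq_cont.measurable).pow_const _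

lemma wt_nonneg (ξ : Fin n → ℝ) : 0 ≤ wt ξ :=
  Real.rpow_nonneg (by linarith [nsq_nonneg ξ]) _

lemma besov {A : ℕ → Set (Fin n → ℝ)} {m : ℕ → ℕ} (hm : Injective m)
    (hA : ∀ k, A k ⊆ shell n (m k)) {f : (Fin n → ℝ) → ℝ} (hf0 : ∀ ξ, 0 ≤ f ξ)
    (h0 : ∀ ξ, ξ ∉ ⋃ k, A k → f ξ = 0) {b : ℕ → ℝ} {r : ℝ} (hr : 0 < r)
    (hb : Summable fun k => b k ^ r)
    (hi : ∀ k, IntegrableOn f (A k) ∧ ∫ ξ in A k, ‖f ξ‖ ≤ b k) :
    (∀ l, IntegrableOn f (shell n l)) ∧ Summable fun l => (∫ ξ in shell n l, f ξ) ^ r := by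
  have h1 : ∀ k, ∀ ξ ∈ shell n (m k) \ A k, f ξ = 0 := by
    intro k ξ hξ
    refine h0 ξ fun h => ?_
    obtain ⟨j, hj⟩ := Set.mem_iUnion.1 h
    have := hm (shell_eq (hA j hj) hξ.1)
    subst this
    exact hξ.2 hj
  have h2 : ∀ l ∉ Set.range m, ∀ ξ ∈ shell n l, f ξ = 0 := by
    intro l hl ξ hξ
    refine h0 ξ fun h => ?_
    obtain ⟨j, hj⟩ := Set.mem_iUnion.1 h
    exact hl ⟨j, shell_eq (hA j hj) hξ⟩
  constructor
  · intro l
    by_cases hl : l ∈ Set.range m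
    · obtain ⟨k, rfl⟩ := hl
      exact (hi k).1.of_forall_sdiff_eq_zero (shell_meas _) (h1 k)
    · exact (integrableOn_empty (f := f) (μ := volume)).of_forall_sdiff_eq_zero (shell_meas _)
        fun ξ hξ => h2 l hl ξ hξ.1
  · refine (hm.summable_iff fun l hl => ?_).1 ?_
    · rw [setIntegral_eq_zero_of_forall_eq_zero (h2 l hl), Real.zero_rpow hr.ne']
    · refine Summable.of_nonneg_of_le (fun k => Real.rpow_nonneg
        (integral_nonneg fun ξ => hf0 ξ) _) (fun k => ?_) hb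
      simp only [comp_apply]
      rw [setIntegral_eq_of_subset_of_forall_sdiff_eq_zero (shell_meas _) (hA k) (h1 k)]
      refine Real.rpow_le_rpow (integral_nonneg fun ξ => hf0 ξ) ?_ hr.le
      have := (hi k).2
      simpa only [Real.norm_of_nonneg (hf0 _)] using this

lemma half_pow (μ : ℕ) : (1 / 2 : ℝ) ^ μ * 2 ^ μ = 1 := by rw [← mul_pow]; norm_num

lemma sig_sum (d : ℕ) (γ : ℝ) (hγ : (d : ℝ) + 1 < γ) :
    Summable fun s : (Σ μ : ℕ, (Fin (d + 1) → Fin (2 ^ μ + 1))) => ((1 / 2 : ℝ) ^ s.1) ^ γ := by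
  have hρ := half_pow
  refine (summable_sigma_of_nonneg fun s => by positivity).2 ⟨fun μ => Summable.of_finite, ?_⟩
  have hr : (2 : ℝ) ^ (d + 1) * (1 / 2 : ℝ) ^ γ < 1 := by
    have h1 : (1 / 2 : ℝ) ^ γ < (1 / 2 : ℝ) ^ (((d + 1 : ℕ) : ℝ)) :=
      Real.rpow_lt_rpow_of_exponent_gt (by norm_num) (by norm_num) (by push_cast; exact hγ)
    rw [Real.rpow_natCast] at h1
    have h2 := mul_lt_mul_of_pos_left h1 (by positivity : (0 : ℝ) < 2 ^ (d + 1))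
    rwa [mul_comm _ ((1 / 2 : ℝ) ^ (d + 1)), hρ] at h2
  refine Summable.of_nonneg_of_le (fun μ => tsum_nonneg fun _ => by positivity) (fun μ => ?_)
    ((summable_geometric_of_lt_one (by positivity) hr).mul_left (2 ^ (d + 1)))
  rw [tsum_fintype]
  simp only [Finset.sum_const, Finset.card_univ, Fintype.card_fun, Fintype.card_fin,
    nsmul_eq_mul]
  rw [mul_pow, ← mul_assoc, ← pow_mul, mul_comm (d + 1) μ, pow_mul, ← mul_pow,
    Real.rpow_pow_comm (by norm_num)]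
  refine mul_le_mul_of_nonneg_right ?_ (by positivity)
  push_cast
  refine pow_le_pow_left₀ (by positivity) ?_ _
  have : (1 : ℝ) ≤ 2 ^ μ := one_le_pow₀ (by norm_num)
  linarith

lemma enum (d : ℕ) (γ : ℝ) (hγ : (d : ℝ) + 1 < γ) :
    ∃ (μ : ℕ → ℕ) (c : ℕ → Fin (d + 1) → ℝ), (Summable fun k => ((1 / 2 : ℝ) ^ μ k) ^ γ) ∧
      (∀ k i, |c k i| ≤ 1) ∧ ∀ x : Fin (d + 1) → ℝ, (∀ i, 0 ≤ x i ∧ x i ≤ 1) → ∀ N, ∃ k, N ≤ k ∧
        ∀ i, (1 / 2 : ℝ) ^ μ k ≤ (x - c k) i ∧ (x - c k) i ≤ 2 * (1 / 2 : ℝ) ^ μ k := by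
  have : Infinite (Σ μ : ℕ, (Fin (d + 1) → Fin (2 ^ μ + 1))) :=
    Infinite.of_injective (fun μ : ℕ => (⟨μ, fun _ => 0⟩ : Σ μ : ℕ, (Fin (d + 1) → Fin (2 ^ μ + 1))))
      fun a b h => congrArg Sigma.fst h
  obtain ⟨e⟩ : Nonempty (ℕ ≃ Σ μ : ℕ, (Fin (d + 1) → Fin (2 ^ μ + 1))) := inferInstance
  have hρ := half_pow
  refine ⟨fun k => (e k).1, fun k i => (1 / 2 : ℝ) ^ (e k).1 * ((((e k).2 i : ℕ) : ℝ) - 1),
    ?_, fun k i => ?_, fun x hx N => ?_⟩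
  · exact (e.summable_iff.2 (sig_sum d γ hγ)).congr fun k => comp_apply
  · have h1 : ((((e k).2 i : ℕ) : ℝ)) ≤ 2 ^ (e k).1 := by
      exact_mod_cast Nat.lt_succ_iff.1 ((e k).2 i).2
    have h2 := hρ (e k).1
    have h3 : (0 : ℝ) < (1 / 2 : ℝ) ^ (e k).1 := by positivity
    have h4 : (1 / 2 : ℝ) ^ (e k).1 ≤ 1 := pow_le_one₀ (by norm_num) (by norm_num)
    have h5 := mul_le_mul_of_nonneg_left h1 h3.le
    have h6 : 0 ≤ (1 / 2 : ℝ) ^ (e k).1 * (((e k).2 i : ℕ) : ℝ) := by positivity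
    beta_reduce
    exact abs_le.2 ⟨by linarith, by linarith⟩
  · have hz : ∀ (μ : ℕ) i, ⌊x i * 2 ^ μ⌋₊ < 2 ^ μ + 1 := fun μ i => by
      refine Nat.lt_succ_iff.2 (Nat.floor_le_of_le ?_)
      push_cast
      exact mul_le_of_le_one_left (by positivity) (hx i).2
    have hinj : Injective fun μ : ℕ => e.symm ⟨μ, fun i => ⟨_, hz μ i⟩⟩ :=
      fun a b h => congrArg Sigma.fst (e.symm.injective h)
    obtain ⟨μ, hμ⟩ := (hinj.nat_tendsto_atTop.eventually_ge_atTop N).exists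
    refine ⟨_, hμ, fun i => ?_⟩
    simp only [Pi.sub_apply]
    rw [e.apply_symm_apply]
    simp only
    have h1 : (⌊x i * 2 ^ μ⌋₊ : ℝ) ≤ x i * 2 ^ μ := Nat.floor_le (mul_nonneg (hx i).1 (by positivity))
    have h2 : x i * 2 ^ μ < ⌊x i * 2 ^ μ⌋₊ + 1 := Nat.lt_floor_add_one _
    have h3 : (0 : ℝ) < (1 / 2 : ℝ) ^ μ := by positivity
    have h4 := mul_le_mul_of_nonneg_left h1 h3.le
    have h5 := mul_le_mul_of_nonneg_left h2.le h3.le
    have h6 : (1 / 2 : ℝ) ^ μ * (x i * 2 ^ μ) = x i := by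
      rw [mul_comm (x i), ← mul_assoc, hρ, one_mul]
    constructor <;> linarith

end Vale.Agent.P076
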