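import Vale.Agent.P076.Glue

namespace Vale.Agent.P076

open MeasureTheory Filter Topology Function

lemma setup (d : ℕ) (μ : ℕ → ℕ) (Λ : ℝ) (hΛ : 1 ≤ Λ) (w : ℝ → ℝ) (hw : Tendsto w atTop (𝓝 0)) :
    ∃ (C : ℝ) (m : ℕ → ℕ) (P R : ℕ → ℝ) (S : ℕ → Fin (d + 1) → Set ℝ), 0 < C ∧
      (∀ k, Pc d C ((1 / 2 : ℝ) ^ μ k) (R k) (S k)) ∧ (∀ k, R k = 2 ^ m k) ∧ StrictMono m ∧
      (∀ k, Λ * 2 ^ k ≤ P k) ∧ (∀ k, P k ^ 2 ≤ R k) ∧
      (∀ j k, k < j → Λ * 2 ^ j * R k ^ 2 ≤ P j) ∧ (∀ k r, R k ≤ r → w r ≤ (1 / 2) ^ k) ∧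
      ∀ k, 1 ≤ (1 / 2 : ℝ) ^ μ k * R k := by
  obtain ⟨p, h1, h2, h3, h4⟩ := rec_seq μ (2 * d + 3) Λ (Bc d) hΛ w hw
  have hB := (Bc_ge d).2
  have hR : ∀ k, ((2 ^ p k : ℕ) : ℝ) ^ (2 * (d + 2)) / (1 / 2 : ℝ) ^ μ k
      = 2 ^ (μ k + (2 * d + 3 + 1) * p k) := fun k => by
    push_cast
    rw [one_div, inv_pow, div_inv_eq_mul, ← pow_mul, ← pow_add]
    congr 1; ring
  have h5 : ∀ k, ∃ S, Pc d (10 * Bc d * 12 ^ d) ((1 / 2 : ℝ) ^ μ k)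
      (2 ^ (μ k + (2 * d + 3 + 1) * p k)) S := fun k => by
    rw [← hR]
    exact piece d _ _ (by positivity) (pow_le_one₀ (by norm_num) (by norm_num))
      (by push_cast; exact h1 k)
  choose S hS using h5
  have h6 : ∀ k, ((2 : ℝ) ^ p k) ^ 2 ≤ 2 ^ (μ k + (2 * d + 3 + 1) * p k) := fun k => by
    rw [← pow_mul]
    refine pow_le_pow_right₀ (by norm_num) ?_
    nlinarith [Nat.zero_le (μ k), Nat.zero_le (d * p k), Nat.zero_le (p k)]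
  have h7 : ∀ k, (2 : ℝ) ^ p k ≤ 2 ^ (μ k + (2 * d + 3 + 1) * p k) := fun k =>
    (le_self_pow₀ (one_le_pow₀ (by norm_num)) (by norm_num)).trans (h6 k)
  refine ⟨_, fun k => μ k + (2 * d + 3 + 1) * p k, fun k => 2 ^ p k,
    fun k => 2 ^ (μ k + (2 * d + 3 + 1) * p k), S, by positivity, hS, fun k => rfl,
    strictMono_nat_of_lt_succ fun k => ?_, h2, h6, h4, fun k r hr => h3 k r ((h7 k).trans hr),
    fun k => ?_⟩
  · refine (pow_lt_pow_iff_right₀ (by norm_num : (1 : ℝ) < 2)).1 (lt_of_lt_of_le ?_ (h7 (k + 1)))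
    refine lt_of_lt_of_le ?_ (h4 (k + 1) k (Nat.lt_succ_self k))
    have e1 : (1 : ℝ) ≤ 2 ^ (μ k + (2 * d + 3 + 1) * p k) := one_le_pow₀ (by norm_num)
    have e2 : (2 : ℝ) ≤ 2 ^ (k + 1) := le_self_pow₀ (by norm_num) (by omega)
    have e3 : (2 : ℝ) ≤ Λ * 2 ^ (k + 1) := e2.trans (le_mul_of_one_le_left (by positivity) hΛ)
    generalize (2 : ℝ) ^ (μ k + (2 * d + 3 + 1) * p k) = X at *
    generalize Λ * 2 ^ (k + 1) = Y at *
    nlinarith [mul_le_mul_of_nonneg_right e3 (sq_nonneg X)]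
  · beta_reduce
    rw [pow_add, ← mul_assoc, half_pow, one_mul]
    exact one_le_pow₀ (by norm_num)

variable {d : ℕ} {C ρ R : ℝ} {S : Fin (d + 1) → Set ℝ}

lemma norm_phi (c ξ : Fin (d + 1) → ℝ) {V : ℝ} (hV : 0 < V) :
    ‖((V⁻¹ : ℝ) : ℂ) * ker 0 0 c ξ‖ = V⁻¹ := by
  rw [norm_mul, norm_ker, Complex.norm_real, Real.norm_of_nonneg (inv_nonneg.2 hV.le)]
  simp

lemma Pc.wt_le (h : Pc d C ρ R S) {ξ : Fin (d + 1) → ℝ} (hξ : ξ ∈ Set.pi Set.univ S) :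
    wt ξ ≤ C * ρ ^ (((d : ℝ) + 1) ^ 2 / (d + 2)) * volume.real (Set.pi Set.univ S) := by
  rw [vol_pi]
  refine le_trans ?_ h.2.2.2.2.2.2.1
  unfold wt
  exact Real.rpow_le_rpow (by linarith [nsq_nonneg ξ]) (by linarith [(h.2.2.2.2.1 ξ hξ).2])
    (by positivity)

lemma Pc.vinv (h : Pc d C ρ R S) (hC : 0 < C) (hρ : 0 < ρ) (hρ1 : ρ ≤ 1) {k : ℕ}
    (hk : (4 : ℝ) ^ k ≤ R) : (volume.real (Set.pi Set.univ S))⁻¹ ≤ C * (1 / 2) ^ k := by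
  have hv := h.vpos
  have h1 := h.2.2.2.2.2.2.1
  rw [← vol_pi] at h1
  have hd : (0 : ℝ) ≤ d := Nat.cast_nonneg d
  have h2 : ρ ^ (((d : ℝ) + 1) ^ 2 / (d + 2)) ≤ 1 := Real.rpow_le_one hρ.le hρ1 (by positivity)
  have h3 : ((2 : ℝ) ^ k) ^ 4 ≤ 1 + 4 * R ^ 2 := by
    have e1 : ((4 : ℝ) ^ k) ^ 2 ≤ R ^ 2 := pow_le_pow_left₀ (by positivity) hk 2
    have e2 : ((2 : ℝ) ^ k) ^ 4 = ((4 : ℝ) ^ k) ^ 2 := by
      rw [show (4 : ℝ) = 2 ^ 2 by norm_num, ← pow_mul, ← pow_mul, ← pow_mul]; congr 1; ring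
    nlinarith [sq_nonneg R]
  have h4 : (((4 : ℕ) : ℝ))⁻¹ ≤ ((d + 1 : ℕ) : ℝ) / (2 * (((d + 1 : ℕ) : ℝ) + 1)) := by
    push_cast
    rw [le_div_iff₀ (by positivity)]; linarith
  have h5 : (2 : ℝ) ^ k
      ≤ (1 + 4 * R ^ 2) ^ (((d + 1 : ℕ) : ℝ) / (2 * (((d + 1 : ℕ) : ℝ) + 1))) := by
    calc (2 : ℝ) ^ k = (((2 : ℝ) ^ k) ^ 4) ^ (((4 : ℕ) : ℝ))⁻¹ :=
          (Real.pow_rpow_inv_natCast (by positivity) (by norm_num)).symm
      _ ≤ (1 + 4 * R ^ 2) ^ (((4 : ℕ) : ℝ))⁻¹ :=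
          Real.rpow_le_rpow (by positivity) h3 (by positivity)
      _ ≤ _ := Real.rpow_le_rpow_of_exponent_le (by nlinarith [sq_nonneg R]) h4
  have h6 : (2 : ℝ) ^ k ≤ C * volume.real (Set.pi Set.univ S) :=
    h5.trans (h1.trans (mul_le_mul_of_nonneg_right (mul_le_of_le_one_right hC.le h2) hv.le))
  rw [inv_le_iff_one_le_mul₀ hv]
  have h7 := mul_le_mul_of_nonneg_left h6 (by positivity : (0 : ℝ) ≤ (1 / 2) ^ k)
  rw [half_pow] at h7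
  linarith

theorem main (d : ℕ) (q : ℝ) (hq : 2 * (((d + 1 : ℕ) : ℝ) + 1) / (d + 1 : ℕ) < q) (w : ℝ → ℝ)
    (hwm : Measurable w) (hw0 : ∀ r, 0 ≤ w r) (hw : Tendsto w atTop (𝓝 0)) :
    ∃ g : (Fin (d + 1) → ℝ) → ℂ, MemLp g 2 volume ∧
      Integrable (fun ξ => wt ξ * w (√(nsq ξ)) * ‖g ξ‖ ^ 2) ∧
      (∀ m, IntegrableOn (fun ξ => wt ξ * ‖g ξ‖ ^ 2) (shell (d + 1) m)) ∧
      Summable (fun m => (∫ ξ in shell (d + 1) m, wt ξ * ‖g ξ‖ ^ 2) ^ (q / 2)) ∧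
      ∀ x : Fin (d + 1) → ℝ, (∀ i, 0 ≤ x i ∧ x i ≤ 1) →
        (∀ t, 0 < t → ∃ u, IsEvol g t x u) ∧ ∀ c, ¬ ConvTo g x c := by
  have hd : (0 : ℝ) ≤ d := Nat.cast_nonneg d
  push_cast at hq
  have hq0 : 0 < q / 2 := by
    have : 0 < 2 * ((d : ℝ) + 1 + 1) / (d + 1) := by positivity
    linarith
  obtain ⟨β, hβ⟩ : ∃ β : ℝ, β = ((d : ℝ) + 1) ^ 2 / (d + 2) := ⟨_, rfl⟩
  have hβ0 : 0 ≤ β := by rw [hβ]; positivity
  have hγ : (d : ℝ) + 1 < β * (q / 2) := by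
    rw [div_lt_iff₀ (by positivity)] at hq
    rw [hβ, div_mul_eq_mul_div, lt_div_iff₀ (by positivity)]
    nlinarith [mul_lt_mul_of_pos_left hq (by positivity : (0 : ℝ) < d + 1)]
  obtain ⟨μ, cen, hsum, hcen, hcov⟩ := enum d _ hγ
  obtain ⟨Λ, hΛ⟩ : ∃ Λ : ℝ, Λ = 180 * 8 ^ (d + 1) := ⟨_, rfl⟩
  have hΛ1 : 180 ≤ Λ * (1 / 8 : ℝ) ^ (d + 1) := by
    rw [hΛ, mul_assoc, ← mul_pow]; norm_num
  have hΛ4 : 4 ≤ Λ := by
    have : (1 : ℝ) ≤ 8 ^ (d + 1) := one_le_pow₀ (by norm_num)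
    rw [hΛ]; linarith
  obtain ⟨C, m, P, R, S, hC, hS, hRm, hm, hP, hPR, hg, hwR, hρR⟩ :=
    setup d μ Λ (by linarith) w hw
  have hρ0 : ∀ k, (0 : ℝ) < (1 / 2 : ℝ) ^ μ k := fun k => by positivity
  have hρ1 : ∀ k, (1 / 2 : ℝ) ^ μ k ≤ 1 := fun k => pow_le_one₀ (by norm_num) (by norm_num)
  have hR0 : ∀ k, 0 < R k := fun k => by rw [hRm]; positivity
  have hR4 : ∀ k, (4 : ℝ) ^ k ≤ R k := fun k => by
    have e1 : (2 : ℝ) ^ k ≤ P k :=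
      (le_mul_of_one_le_left (by positivity) (by linarith)).trans (hP k)
    have e2 := pow_le_pow_left₀ (by positivity) e1 2
    rw [← pow_mul, mul_comm, pow_mul] at e2
    norm_num at e2
    exact e2.trans (hPR k)
  have hR2 : ∀ k, (2 : ℝ) ^ k ≤ R k := fun k =>
    (pow_le_pow_left₀ (by norm_num) (by norm_num) k).trans (hR4 k)
  have hRi : ∀ k, 1 / R k ≤ (1 / 2 : ℝ) ^ k := fun k => by
    rw [one_div_pow]; exact one_div_le_one_div_of_le (by positivity) (hR2 k)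
  obtain ⟨A, hA⟩ : ∃ A : ℕ → Set (Fin (d + 1) → ℝ), ∀ k, A k = Set.pi Set.univ (S k) :=
    ⟨_, fun _ => rfl⟩
  have hAm : ∀ k, MeasurableSet (A k) := fun k => hA k ▸ (hS k).meas
  have hAV : ∀ k, volume (A k) ≠ ⊤ := fun k => hA k ▸ vol_pi_ne (hS k).2.1
  have hAv : ∀ k, 0 < volume.real (A k) := fun k => hA k ▸ (hS k).vpos
  have hAn : ∀ k, ∀ ξ ∈ A k, R k ^ 2 ≤ nsq ξ ∧ nsq ξ < 4 * R k ^ 2 := fun k ξ hξ =>
    (hS k).2.2.2.2.1 ξ (hA k ▸ hξ)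
  have hAs : ∀ k, A k ⊆ shell (d + 1) (m k) := fun k ξ hξ => by
    have e1 := hAn k ξ hξ
    have e2 : R k ^ 2 = 4 ^ m k := by
      rw [hRm, ← pow_mul, mul_comm, pow_mul]; norm_num
    rw [e2] at e1
    exact ⟨e1.1, by rw [pow_succ]; linarith [e1.2]⟩
  have hAd : Pairwise (Disjoint on A) := fun j k hjk =>
    Set.disjoint_left.2 fun ξ h1 h2 => hjk (hm.injective (shell_eq (hAs j h1) (hAs k h2)))
  obtain ⟨φ, hφ⟩ : ∃ φ : ℕ → (Fin (d + 1) → ℝ) → ℂ, ∀ k ξ,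
      φ k ξ = (((volume.real (A k))⁻¹ : ℝ) : ℂ) * ker 0 0 (-cen k) ξ := ⟨_, fun _ _ => rfl⟩
  have hφm : ∀ k, Measurable (φ k) := fun k => by
    rw [funext (hφ k)]; exact measurable_const.mul (ker_cont _ _ _).measurable
  have hgm := gl_meas hAm hAd hφm
  have hg1 : ∀ k, ∀ ξ ∈ A k, gl A φ ξ = φ k ξ := fun k ξ hξ => gl_in hAd φ hξ
  have hg0 : ∀ ξ, ξ ∉ ⋃ k, A k → gl A φ ξ = 0 := fun ξ hξ => gl_out φ hξ
  generalize gl A φ = g at hgm hg1 hg0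
  have hgn : ∀ k, ∀ ξ ∈ A k, ‖g ξ‖ = (volume.real (A k))⁻¹ := fun k ξ hξ => by
    rw [hg1 k ξ hξ, hφ, norm_phi _ _ (hAv k)]
  have hgeo : ∀ M : ℝ, Summable fun k : ℕ => M * (1 / 2 : ℝ) ^ k := fun M =>
    summable_geometric_two.mul_left M
  have hn2 : Measurable fun ξ => ‖g ξ‖ ^ 2 := hgm.norm.pow_const 2
  have hwt : ∀ k, ∀ ξ ∈ A k, wt ξ * ‖g ξ‖ ^ 2
      ≤ C * ((1 / 2 : ℝ) ^ μ k) ^ β * (volume.real (A k))⁻¹ := fun k ξ hξ => by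
    have e1 := (hS k).wt_le (hA k ▸ hξ)
    rw [← hA, ← hβ] at e1
    have e2 := (hAv k).ne'
    rw [hgn k ξ hξ]
    refine (mul_le_mul_of_nonneg_right e1 (sq_nonneg _)).trans (le_of_eq ?_)
    field_simp
  refine ⟨g, ?_, ?_, ?_⟩
  · refine (memLp_two_iff_integrable_sq_norm hgm.aestronglyMeasurable).2
      (glue hAm hAd (fun ξ hξ => by simp [hg0 ξ hξ]) (hgeo C) fun k => ?_).1
    obtain ⟨e1, e2⟩ := onblk (hAm k) (hAV k) hn2.aestronglyMeasurable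
      (M := ((volume.real (A k))⁻¹) ^ 2) fun ξ hξ => by
        rw [Real.norm_of_nonneg (sq_nonneg _), hgn k ξ hξ]
    refine ⟨e1, e2.trans ?_⟩
    have e3 := (hS k).vinv hC (hρ0 k) (hρ1 k) (hR4 k)
    rw [← hA] at e3
    rw [sq, mul_assoc, inv_mul_cancel₀ (hAv k).ne', mul_one]
    exact e3
  · refine (glue hAm hAd (fun ξ hξ => by simp [hg0 ξ hξ]) (hgeo C) fun k => ?_).1
    obtain ⟨e1, e2⟩ := onblk (hAm k) (hAV k) (f := fun ξ => wt ξ * w (√(nsq ξ)) * ‖g ξ‖ ^ 2)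
      ((wt_meas.mul (hwm.comp nsq_cont.measurable.sqrt)).mul hn2).aestronglyMeasurable
      (M := C * (1 / 2 : ℝ) ^ k * (volume.real (A k))⁻¹) fun ξ hξ => by
        have e1 := hwR k (√(nsq ξ)) (Real.le_sqrt_of_sq_le (hAn k ξ hξ).1)
        have e2 := hwt k ξ hξ
        have e3 : ((1 / 2 : ℝ) ^ μ k) ^ β ≤ 1 := Real.rpow_le_one (hρ0 k).le (hρ1 k) hβ0
        have e4 := inv_nonneg.2 (hAv k).le
        have e5 : wt ξ * ‖g ξ‖ ^ 2 ≤ C * (volume.real (A k))⁻¹ :=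
          e2.trans (mul_le_mul_of_nonneg_right (mul_le_of_le_one_right hC.le e3) e4)
        have e6 := mul_le_mul e5 e1 (hw0 _) (mul_nonneg hC.le e4)
        rw [Real.norm_of_nonneg (mul_nonneg (mul_nonneg (wt_nonneg ξ) (hw0 _)) (sq_nonneg _))]
        linarith
    refine ⟨e1, e2.trans (le_of_eq ?_)⟩
    rw [mul_assoc, inv_mul_cancel₀ (hAv k).ne', mul_one]
  have hbes := besov hm.injective hAs (f := fun ξ => wt ξ * ‖g ξ‖ ^ 2)
    (fun ξ => mul_nonneg (wt_nonneg ξ) (sq_nonneg _)) (fun ξ hξ => by simp [hg0 ξ hξ])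
    (b := fun k => C * ((1 / 2 : ℝ) ^ μ k) ^ β) hq0
    ((hsum.mul_left (C ^ (q / 2))).congr fun k => by
      rw [Real.mul_rpow hC.le (Real.rpow_nonneg (hρ0 k).le _), ← Real.rpow_mul (hρ0 k).le])
    fun k => by
      obtain ⟨e1, e2⟩ := onblk (hAm k) (hAV k) (f := fun ξ => wt ξ * ‖g ξ‖ ^ 2)
        (wt_meas.mul hn2).aestronglyMeasurable
        (M := C * ((1 / 2 : ℝ) ^ μ k) ^ β * (volume.real (A k))⁻¹) fun ξ hξ => by
          rw [Real.norm_of_nonneg (mul_nonneg (wt_nonneg ξ) (sq_nonneg _))]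
          exact hwt k ξ hξ
      refine ⟨e1, e2.trans (le_of_eq ?_)⟩
      rw [mul_assoc, inv_mul_cancel₀ (hAv k).ne', mul_one]
  refine ⟨hbes.1, hbes.2, fun x hx => ?_⟩
  have hs : ∀ a, 0 < a → ∀ t, HasSum (fun j => blk (S j) a t (x - cen j))
      (∫ ξ, ker a t x ξ * g ξ) := by
    intro a ha t
    have e0 := (glue hAm hAd (f := fun ξ => ker a t x ξ * g ξ) (fun ξ hξ => by simp [hg0 ξ hξ])
      (hgeo (1 / a)) fun k => ?_).2
    · refine e0.congr_fun fun k => ?_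
      have e1 : ∫ ξ in A k, ker a t x ξ * g ξ = ∫ ξ in A k,
          (((volume.real (A k))⁻¹ : ℝ) : ℂ) * ker a t (x - cen k) ξ :=
        setIntegral_congr_fun (hAm k) fun ξ hξ => by
          rw [hg1 k ξ hξ, hφ, ← ker_mul]; ring
      rw [e1, integral_const_mul, blk, hA]
    · obtain ⟨e1, e2⟩ := onblk (hAm k) (hAV k) (f := fun ξ => ker a t x ξ * g ξ)
        ((ker_cont a t x).measurable.mul hgm).aestronglyMeasurable
        (M := 1 / a * (1 / 2 : ℝ) ^ k * (volume.real (A k))⁻¹) fun ξ hξ => by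
          rw [norm_mul, hgn k ξ hξ, norm_ker]
          refine mul_le_mul_of_nonneg_right ?_ (inv_nonneg.2 (hAv k).le)
          have e1 : (1 : ℝ) ≤ R k := (one_le_pow₀ (by norm_num)).trans (hR2 k)
          have e2 : R k ≤ nsq ξ := (le_self_pow₀ e1 (by norm_num)).trans (hAn k ξ hξ).1
          have e3 : a * R k ≤ Real.exp (a * nsq ξ) := by
            linarith [Real.add_one_le_exp (a * nsq ξ), mul_le_mul_of_nonneg_left e2 ha.le]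
          rw [Real.exp_neg]
          refine (inv_anti₀ (mul_pos ha (hR0 k)) e3).trans ?_
          rw [mul_inv, ← one_div, ← one_div]
          exact mul_le_mul_of_nonneg_left (hRi k) (by positivity)
      refine ⟨e1, e2.trans (le_of_eq ?_)⟩
      rw [mul_assoc, inv_mul_cancel₀ (hAv k).ne', mul_one]
  have hy : ∀ j, |(x - cen j) 0| ≤ 2 := fun j => by
    have e1 := abs_le.1 (hcen j 0)
    have e2 := hx 0
    simp only [Pi.sub_apply]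
    exact abs_le.2 ⟨by linarith, by linarith⟩
  have hdec : ∀ j a t, 0 < a → 0 < t → ‖blk (S j) a t (x - cen j)‖ ≤ 10 / (t * R j) :=
    fun j a t ha ht => (hS j).dec (hR0 j) ha.le ht (hy j)
  refine ⟨fun t ht => ?_, fun c => ?_⟩
  · have e1 := tendsto_tsum_of_dominated_convergence (𝓕 := 𝓝[>] (0 : ℝ))
      (f := fun a j => blk (S j) a t (x - cen j)) (hgeo (10 / t))
      (fun j => (hS j).tend t (x - cen j)) (by
        filter_upwards [self_mem_nhdsWithin] with a ha j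
        refine (hdec j a t ha ht).trans ?_
        rw [← div_div, div_eq_mul_one_div]
        exact mul_le_mul_of_nonneg_left (hRi j) (by positivity))
    refine ⟨_, (e1.const_mul (((2 * Real.pi) ^ (d + 1) : ℝ) : ℂ)⁻¹).congr' ?_⟩
    filter_upwards [self_mem_nhdsWithin] with a ha
    rw [(hs a ha t).tsum_eq, reg]
  · refine nocv (fun j a t => blk (S j) a t (x - cen j)) (fun a t => ∫ ξ, ker a t x ξ * g ξ) R P Λ
      ((1 / 8 : ℝ) ^ (d + 1)) (((2 * Real.pi) ^ (d + 1) : ℝ) : ℂ)⁻¹ ?_ (by positivity) hΛ1 hΛ4 hP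
      hPR hg hs hdec (fun j a t s ha => (hS j).lip ha.le t s _) (fun N => ?_) c
    · exact inv_ne_zero (Complex.ofReal_ne_zero.2 (by have := Real.pi_pos; positivity))
    · obtain ⟨k, hk, hyk⟩ := hcov x hx N
      obtain ⟨t, e1, e2, e3⟩ := (hS k).low hyk
      refine ⟨k, hk, t, le_trans ?_ e1, e2.trans ?_, e3⟩
      · have e4 := hR0 k
        rw [div_le_div_iff₀ (by positivity) (by positivity)]
        nlinarith [mul_le_mul_of_nonneg_right (hρR k) e4.le]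
      · exact div_le_div_of_nonneg_right (by linarith [hρ1 k]) (hR0 k).le

end Vale.Agent.P076
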