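import Vale.Agent.P076.Defs

namespace Vale.Agent.P076

open MeasureTheory Filter Topology Complex

/-- one-dimensional kernel -/
noncomputable def k1 (a t y η : ℝ) : ℂ :=
  Complex.exp (I * ((y * η - t * η ^ 2 : ℝ) : ℂ) - ((a * η ^ 2 : ℝ) : ℂ))

lemma k1_cont (a t y : ℝ) : Continuous (k1 a t y) := by
  unfold k1; fun_prop

lemma norm_k1 (a t y η : ℝ) : ‖k1 a t y η‖ = Real.exp (-(a * η ^ 2)) := by
  unfold k1
  rw [Complex.norm_exp]
  congr 1
  simp only [sub_re, mul_re, I_re, I_im, ofReal_re, ofReal_im]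
  ring

lemma norm_k1_le (a t y η : ℝ) (ha : 0 ≤ a) : ‖k1 a t y η‖ ≤ 1 := by
  rw [norm_k1]
  exact Real.exp_le_one_iff.2 (neg_nonpos.2 (by positivity))

lemma k1_intOn (a t y : ℝ) (ha : 0 ≤ a) {S : Set ℝ} (hS : volume S ≠ ⊤) :
    IntegrableOn (k1 a t y) S := by
  refine Measure.integrableOn_of_bounded (M := 1) hS (k1_cont a t y).aestronglyMeasurable ?_
  exact Eventually.of_forall fun η => norm_k1_le a t y η ha

lemma triv1 (a t y : ℝ) (ha : 0 ≤ a) {S : Set ℝ} (hS : volume S ≠ ⊤) :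
    ‖∫ η in S, k1 a t y η‖ ≤ volume.real S := by
  have := norm_setIntegral_le_of_norm_le_const (μ := volume) (s := S) (f := k1 a t y) (C := 1)
    (lt_top_iff_ne_top.2 hS) (fun η _ => norm_k1_le a t y η ha)
  simpa using this

lemma low1 (a t y γ : ℝ) (ha : 0 ≤ a) {S : Set ℝ} (hm : MeasurableSet S) (hS : volume S ≠ ⊤)
    (hph : ∀ η ∈ S, ∃ z : ℤ, |y * η - t * η ^ 2 - γ - 2 * Real.pi * z| ≤ 1)
    (hsm : ∀ η ∈ S, a * η ^ 2 ≤ 1) :
    volume.real S / 8 ≤ ‖∫ η in S, k1 a t y η‖ := by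
  have hI := k1_intOn a t y ha hS
  set e : ℂ := Complex.exp (-(I * γ)) with he
  have hne : ‖e‖ = 1 := by
    rw [he, Complex.norm_exp]; simp
  have h1 : ‖∫ η in S, k1 a t y η‖ = ‖∫ η in S, e * k1 a t y η‖ := by
    rw [integral_const_mul, norm_mul, hne, one_mul]
  have hI2 : IntegrableOn (fun η => e * k1 a t y η) S := hI.const_mul e
  have h2 : (∫ η in S, e * k1 a t y η).re = ∫ η in S, (e * k1 a t y η).re :=
    (integral_re hI2).symm
  have h3 : ∀ η ∈ S, (1 / 8 : ℝ) ≤ (e * k1 a t y η).re := by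
    intro η hη
    obtain ⟨z, hz⟩ := hph η hη
    have h4 : e * k1 a t y η = Complex.exp (((-(a * η ^ 2) : ℝ) : ℂ)
        + ((y * η - t * η ^ 2 - γ : ℝ) : ℂ) * I) := by
      rw [he, k1, ← Complex.exp_add]
      congr 1
      push_cast
      ring
    rw [h4, Complex.exp_re]
    simp only [add_re, add_im, ofReal_re, ofReal_im, mul_re, mul_im, I_re, I_im, mul_zero,
      mul_one, sub_zero, add_zero, zero_add]
    have h5 : Real.cos (y * η - t * η ^ 2 - γ)
        = Real.cos (y * η - t * η ^ 2 - γ - 2 * Real.pi * z) := by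
      rw [show y * η - t * η ^ 2 - γ - 2 * Real.pi * z
        = y * η - t * η ^ 2 - γ - z * (2 * Real.pi) by ring, Real.cos_sub_int_mul_two_pi]
    have h6 : (1 / 2 : ℝ) ≤ Real.cos (y * η - t * η ^ 2 - γ - 2 * Real.pi * z) := by
      have := Real.one_sub_sq_div_two_le_cos (x := y * η - t * η ^ 2 - γ - 2 * Real.pi * z)
      have h7 : (y * η - t * η ^ 2 - γ - 2 * Real.pi * z) ^ 2 ≤ 1 := by
        rw [← sq_abs]; exact pow_le_one₀ (abs_nonneg _) hz
      linarith
    have h8 : (1 / 4 : ℝ) ≤ Real.exp (-(a * η ^ 2)) := by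
      have h9 : Real.exp (-1) ≤ Real.exp (-(a * η ^ 2)) :=
        Real.exp_le_exp.2 (neg_le_neg (hsm η hη))
      have h10 := Real.exp_neg_one_gt_d9
      linarith
    rw [h5]
    calc (1 / 8 : ℝ) = 1 / 4 * (1 / 2) := by norm_num
      _ ≤ _ := mul_le_mul h8 h6 (by norm_num) (Real.exp_pos _).le
  have h11 : ∫ _ in S, (1 / 8 : ℝ) ≤ ∫ η in S, (e * k1 a t y η).re :=
    setIntegral_mono_on (integrableOn_const hS) hI2.re hm h3
  rw [setIntegral_const, smul_eq_mul] at h11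
  rw [h1]
  have h12 := Complex.re_le_norm (∫ η in S, e * k1 a t y η)
  rw [h2] at h12
  linarith

lemma dec1 (a t y R θ : ℝ) (ha : 0 ≤ a) (ht : 0 < t) (hR : 0 < R) (h0 : 0 ≤ θ) (h1 : θ ≤ R)
    (hy : |y| ≤ t * R) : ‖∫ η in Set.Ico R (R + θ), k1 a t y η‖ ≤ 5 / (t * R) := by
  have hle : R ≤ R + θ := by linarith
  rw [integral_Ico_eq_integral_Ioc, ← intervalIntegral.integral_of_le hle]
  set p : ℝ → ℂ := fun η => I * ((y - 2 * t * η : ℝ) : ℂ) - ((2 * a * η : ℝ) : ℂ) with hp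
  set q : ℂ := -(I * ((2 * t : ℝ) : ℂ)) - ((2 * a : ℝ) : ℂ) with hq
  have hpn : ∀ η, R ≤ η → η ^ 2 * (t ^ 2 + 4 * a ^ 2) ≤ ‖p η‖ ^ 2 := by
    intro η hη
    rw [Complex.sq_norm, Complex.normSq_apply]
    simp only [hp, sub_re, sub_im, mul_re, mul_im, I_re, I_im, ofReal_re, ofReal_im]
    have h2 : t * η ≤ 2 * t * η - y := by
      have := le_abs_self y
      have h3 : t * R ≤ t * η := mul_le_mul_of_nonneg_left hη ht.le
      linarith
    have h4 : 0 ≤ t * η := mul_nonneg ht.le (by linarith)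
    have h5 : (t * η) ^ 2 ≤ (2 * t * η - y) ^ 2 := pow_le_pow_left₀ h4 h2 2
    nlinarith
  have hp1 : ∀ η, R ≤ η → t * R ≤ ‖p η‖ := by
    intro η hη
    have h2 := hpn η hη
    have h3 : (t * R) ^ 2 ≤ ‖p η‖ ^ 2 := by
      have h4 : R ^ 2 ≤ η ^ 2 := pow_le_pow_left₀ hR.le hη 2
      have h5 : R ^ 2 * t ^ 2 ≤ η ^ 2 * (t ^ 2 + 4 * a ^ 2) :=
        mul_le_mul h4 (by nlinarith [sq_nonneg a]) (sq_nonneg _) (sq_nonneg _)
      nlinarith
    exact (pow_le_pow_iff_left₀ (by positivity) (norm_nonneg _) two_ne_zero).1 h3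
  have htR : 0 < t * R := mul_pos ht hR
  have hp0 : ∀ η, R ≤ η → p η ≠ 0 := fun η hη h => by
    have := hp1 η hη
    rw [h, norm_zero] at this
    linarith
  have hdk : ∀ η, HasDerivAt (k1 a t y) (k1 a t y η * p η) η := by
    intro η
    have h2 : HasDerivAt (fun η : ℝ => y * η - t * η ^ 2) (y - 2 * t * η) η := by
      have := ((hasDerivAt_id η).const_mul y).sub ((hasDerivAt_pow 2 η).const_mul t)
      refine this.congr_deriv ?_
      simp; ring
    have h3 : HasDerivAt (fun η : ℝ => a * η ^ 2) (2 * a * η) η := by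
      have := (hasDerivAt_pow 2 η).const_mul a
      refine this.congr_deriv ?_
      simp; ring
    exact ((h2.ofReal_comp.const_mul I).sub h3.ofReal_comp).cexp
  have hdp : ∀ η, HasDerivAt p q η := by
    intro η
    have h2 : HasDerivAt (fun η : ℝ => y - 2 * t * η) (-(2 * t)) η := by
      have := ((hasDerivAt_id η).const_mul (2 * t)).const_sub y
      refine this.congr_deriv ?_
      simp
    have h3 : HasDerivAt (fun η : ℝ => 2 * a * η) (2 * a) η := by
      have := (hasDerivAt_id η).const_mul (2 * a)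
      refine this.congr_deriv ?_
      simp
    refine ((h2.ofReal_comp.const_mul I).sub h3.ofReal_comp).congr_deriv ?_
    rw [hq]; push_cast; ring
  have hpc : Continuous p := by rw [hp]; fun_prop
  have hmem : ∀ η ∈ Set.uIcc R (R + θ), R ≤ η := fun η hη => by
    rw [Set.uIcc_of_le hle] at hη; exact hη.1
  have hdG : ∀ η ∈ Set.uIcc R (R + θ), HasDerivAt (fun η => k1 a t y η / p η)
      (k1 a t y η - k1 a t y η * (q / p η ^ 2)) η := by
    intro η hη
    have h2 := hp0 η (hmem η hη)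
    refine ((hdk η).div (hdp η) h2).congr_deriv ?_
    field_simp
  have hc2 : ContinuousOn (fun η => k1 a t y η * (q / p η ^ 2)) (Set.uIcc R (R + θ)) :=
    (k1_cont a t y).continuousOn.mul (continuousOn_const.div (hpc.pow 2).continuousOn
      fun η hη => pow_ne_zero 2 (hp0 η (hmem η hη)))
  have hi1 : IntervalIntegrable (k1 a t y) volume R (R + θ) :=
    (k1_cont a t y).intervalIntegrable _ _
  have hi2 := hc2.intervalIntegrable (μ := volume)
  have hF := intervalIntegral.integral_eq_sub_of_hasDerivAt hdG (hi1.sub hi2)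
  rw [intervalIntegral.integral_sub hi1 hi2] at hF
  have hb : ∀ η, R ≤ η → ‖k1 a t y η / p η‖ ≤ 1 / (t * R) := fun η hη => by
    rw [norm_div]
    exact div_le_div₀ zero_le_one (norm_k1_le a t y η ha) htR (hp1 η hη)
  have hqn : ‖q‖ ≤ 2 * t + 2 * a := by
    refine (norm_sub_le _ _).trans ?_
    rw [norm_neg, norm_mul, Complex.norm_I, one_mul, Complex.norm_real, Complex.norm_real,
      Real.norm_of_nonneg (by positivity), Real.norm_of_nonneg (by positivity)]
  have hb2 : ∀ η ∈ Set.uIoc R (R + θ), ‖k1 a t y η * (q / p η ^ 2)‖ ≤ 3 / (t * R ^ 2) := by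
    intro η hη
    have hη' := hmem η (Set.uIoc_subset_uIcc hη)
    rw [norm_mul, norm_div, norm_pow]
    have h2 := hpn η hη'
    have h4 : R ^ 2 ≤ η ^ 2 := pow_le_pow_left₀ hR.le hη' 2
    have h5 : R ^ 2 * (t ^ 2 + 4 * a ^ 2) ≤ ‖p η‖ ^ 2 :=
      (mul_le_mul_of_nonneg_right h4 (by positivity)).trans h2
    have h6 : ‖q‖ / ‖p η‖ ^ 2 ≤ (2 * t + 2 * a) / (R ^ 2 * (t ^ 2 + 4 * a ^ 2)) :=
      div_le_div₀ (by positivity) hqn (by positivity) h5
    have h7 : (2 * t + 2 * a) / (R ^ 2 * (t ^ 2 + 4 * a ^ 2)) ≤ 3 / (t * R ^ 2) := by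
      rw [div_le_div_iff₀ (by positivity) (by positivity)]
      have h8 : (2 * t + 2 * a) * t ≤ 3 * (t ^ 2 + 4 * a ^ 2) := by
        nlinarith [sq_nonneg (t - a), sq_nonneg a]
      have h9 := mul_le_mul_of_nonneg_right h8 (sq_nonneg R)
      nlinarith
    calc _ ≤ 1 * (‖q‖ / ‖p η‖ ^ 2) :=
          mul_le_mul_of_nonneg_right (norm_k1_le a t y η ha) (by positivity)
      _ ≤ _ := by rw [one_mul]; exact h6.trans h7
  have hb3 := intervalIntegral.norm_integral_le_of_norm_le_const hb2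
  rw [add_sub_cancel_left, abs_of_nonneg h0] at hb3
  have hb4 : 3 / (t * R ^ 2) * θ ≤ 3 / (t * R) := by
    calc _ ≤ 3 / (t * R ^ 2) * R := mul_le_mul_of_nonneg_left h1 (by positivity)
      _ = _ := by field_simp
  have hE : ∫ η in R..(R + θ), k1 a t y η = (k1 a t y (R + θ) / p (R + θ) - k1 a t y R / p R)
      + ∫ η in R..(R + θ), k1 a t y η * (q / p η ^ 2) := by
    rw [← hF]; ring
  rw [hE]
  refine (norm_add_le _ _).trans ?_
  have hb5 := (norm_sub_le _ _).trans (add_le_add (hb _ hle) (hb R le_rfl))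
  have : 5 / (t * R) = 1 / (t * R) + 1 / (t * R) + 3 / (t * R) := by ring
  linarith

lemma digit (K : ℕ) (hK : 0 < K) (z : ℕ → ℝ) (d : ℕ) :
    ∃ j : ℕ, j < K ^ d ∧ ∀ i < d, ∃ m : ℤ, |z i - (j : ℝ) / (K : ℝ) ^ (i + 1) - m| ≤ 1 / K := by
  have hK' : (0 : ℝ) < K := by exact_mod_cast hK
  induction d with
  | zero => exact ⟨0, by simp, fun i hi => absurd hi (Nat.not_lt_zero i)⟩
  | succ d ih =>
    obtain ⟨j, hj, h⟩ := ih
    have hf0 := Int.fract_nonneg (z d)
    have hf1 := Int.fract_lt_one (z d)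
    set e : ℕ := ⌊(K : ℝ) * Int.fract (z d)⌋₊ with he
    have he1 : (e : ℝ) ≤ K * Int.fract (z d) := Nat.floor_le (by positivity)
    have he2 : K * Int.fract (z d) < e + 1 := Nat.lt_floor_add_one _
    have he3 : e < K := by
      have : (e : ℝ) < K := by nlinarith
      exact_mod_cast this
    refine ⟨j + e * K ^ d, ?_, fun i hi => ?_⟩
    · calc j + e * K ^ d < K ^ d + e * K ^ d := by omega
        _ = (e + 1) * K ^ d := by ring
        _ ≤ K * K ^ d := Nat.mul_le_mul_right _ he3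
        _ = K ^ (d + 1) := by ring
    · rcases Nat.lt_succ_iff_lt_or_eq.1 hi with hi | rfl
      · obtain ⟨m, hm⟩ := h i hi
        obtain ⟨r, rfl⟩ := Nat.exists_eq_add_of_lt hi
        refine ⟨m - e * K ^ r, ?_⟩
        have : z i - ((j + e * K ^ (i + r + 1) : ℕ) : ℝ) / (K : ℝ) ^ (i + 1)
            - ((m - e * K ^ r : ℤ) : ℝ) = z i - (j : ℝ) / (K : ℝ) ^ (i + 1) - m := by
          push_cast; field_simp; ring
        rw [this]; exact hm
      · refine ⟨⌊z i⌋, ?_⟩
        have hj' : (j : ℝ) < (K : ℝ) ^ i := by exact_mod_cast hj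
        have hKi : (0 : ℝ) < (K : ℝ) ^ i := by positivity
        have h1 : z i - ((j + e * K ^ i : ℕ) : ℝ) / (K : ℝ) ^ (i + 1) - (⌊z i⌋ : ℝ)
            = (K * Int.fract (z i) - e - (j : ℝ) / (K : ℝ) ^ i) / K := by
          rw [Int.fract]; push_cast; field_simp; ring
        have h2 : (j : ℝ) / (K : ℝ) ^ i < 1 := (div_lt_one hKi).2 hj'
        have h3 : 0 ≤ (j : ℝ) / (K : ℝ) ^ i := by positivity
        rw [h1, abs_div, abs_of_pos hK']
        refine div_le_div_of_nonneg_right (abs_le.2 ⟨by linarith, by linarith⟩) hK'.le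

end Vale.Agent.P076
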