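import Vale.Agent.P076.One

namespace Vale.Agent.P076

open MeasureTheory Filter Topology

/-- union of short intervals along a shifted lattice -/
def cell (D β δ : ℝ) (P : ℕ) : Set ℝ :=
  ⋃ l ∈ Finset.range P, Set.Ico (D * l + β) (D * l + β + δ)

lemma cell_meas (D β δ : ℝ) (P : ℕ) : MeasurableSet (cell D β δ P) :=
  Finset.measurableSet_biUnion _ fun _ _ => measurableSet_Ico

lemma cell_vol (D β δ : ℝ) (P : ℕ) (h0 : 0 ≤ δ) (h : δ ≤ D) :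
    volume (cell D β δ P) = ENNReal.ofReal (P * δ) := by
  have hD : 0 ≤ D := h0.trans h
  unfold cell
  rw [measure_biUnion_finset _ (fun _ _ => measurableSet_Ico)]
  · simp only [Real.volume_Ico, add_sub_cancel_left, Finset.sum_const, Finset.card_range,
      nsmul_eq_mul]
    rw [ENNReal.ofReal_mul (Nat.cast_nonneg _), ENNReal.ofReal_natCast]
  · have key : ∀ l l' : ℕ, l < l' → Disjoint (Set.Ico (D * l + β) (D * l + β + δ))
        (Set.Ico (D * l' + β) (D * l' + β + δ)) := by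
      intro l l' hl
      rw [Set.Ico_disjoint_Ico]
      have h1 : (l : ℝ) + 1 ≤ l' := by exact_mod_cast hl
      have h2 := mul_le_mul_of_nonneg_left h1 hD
      exact (min_le_left _ _).trans (le_trans (by linarith) (le_max_right _ _))
    intro l _ l' _ hne
    rcases lt_or_gt_of_ne hne with h1 | h1
    · exact key l l' h1
    · exact (key l' l h1).symm

lemma mem_cell {D β δ : ℝ} {P : ℕ} {η : ℝ} (h : η ∈ cell D β δ P) :
    ∃ l : ℕ, l < P ∧ ∃ u, 0 ≤ u ∧ u ≤ δ ∧ η = D * l + β + u := by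
  simp only [cell, Set.mem_iUnion, Finset.mem_range, Set.mem_Ico] at h
  obtain ⟨l, hl, h1, h2⟩ := h
  exact ⟨l, hl, η - (D * l + β), by linarith, by linarith, by ring⟩

lemma cell_bd {D β δ : ℝ} {P : ℕ} {η : ℝ} (hD : 0 ≤ D) (hβ : 0 ≤ β) (h1 : β + δ ≤ D)
    (h : η ∈ cell D β δ P) : 0 ≤ η ∧ η ≤ D * P := by
  obtain ⟨l, hl, u, hu0, hu1, rfl⟩ := mem_cell h
  have h2 : (l : ℝ) + 1 ≤ P := by exact_mod_cast hl
  have h3 := mul_le_mul_of_nonneg_left h2 hD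
  exact ⟨by positivity, by linarith⟩

lemma cell_phase {D α δ y t w ρ : ℝ} {P j : ℕ} {m : ℤ} (hD : 0 ≤ D) (hα : 0 ≤ α)
    (h1 : D * α / 2 + δ ≤ D) (ht : t * D ^ 2 = 2 * Real.pi * j) (hw : D * y = 2 * Real.pi * w)
    (hm : |w - j * α - m| ≤ 1 / (16 * P)) (hP : 0 < P) (hy : |y| ≤ 2 * ρ) (ht0 : 0 ≤ t)
    (ht1 : t * (D * P) ≤ 2 * ρ) (hδ : δ * ρ ≤ 1 / 12) :
    ∃ γ : ℝ, ∀ η ∈ cell D (D * α / 2) δ P, ∃ z : ℤ,
      |y * η - t * η ^ 2 - γ - 2 * Real.pi * z| ≤ 1 := by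
  refine ⟨y * (D * α / 2) - t * (D * α / 2) ^ 2, fun η hη => ?_⟩
  have hb := cell_bd hD (by positivity) h1 hη
  obtain ⟨l, hl, u, hu0, hu1, rfl⟩ := mem_cell hη
  refine ⟨l * m - j * l ^ 2, ?_⟩
  have hid : y * (D * l + D * α / 2 + u) - t * (D * l + D * α / 2 + u) ^ 2
      - (y * (D * α / 2) - t * (D * α / 2) ^ 2) - 2 * Real.pi * ((l * m - j * l ^ 2 : ℤ) : ℝ)
      = l * (2 * Real.pi) * (w - j * α - m) + u * (y - t * (2 * (D * l + D * α / 2) + u)) := by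
    push_cast
    linear_combination (l : ℝ) * hw - ((l : ℝ) ^ 2 + l * α) * ht
  rw [hid]
  have hP' : (0 : ℝ) < P := by exact_mod_cast hP
  have hl' : (l : ℝ) ≤ P := by exact_mod_cast hl.le
  have hA : |l * (2 * Real.pi) * (w - j * α - m)| ≤ 1 / 2 := by
    rw [abs_mul, abs_of_nonneg (by positivity : (0 : ℝ) ≤ l * (2 * Real.pi))]
    have h2 : (l : ℝ) * (2 * Real.pi) ≤ P * 8 :=
      mul_le_mul hl' (by linarith [Real.pi_le_four]) (by positivity) hP'.le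
    calc _ ≤ (P * 8 : ℝ) * (1 / (16 * P)) := mul_le_mul h2 hm (abs_nonneg _) (by positivity)
      _ = 1 / 2 := by field_simp; norm_num
  have hρ : 0 ≤ ρ := by linarith [abs_nonneg y]
  have hB : |u * (y - t * (2 * (D * l + D * α / 2) + u))| ≤ 1 / 2 := by
    rw [abs_mul, abs_of_nonneg hu0]
    have h2 : 2 * (D * l + D * α / 2) + u ≤ 2 * (D * P) := by linarith [hb.2]
    have h3 : 0 ≤ 2 * (D * l + D * α / 2) + u := by positivity
    have h4 : t * (2 * (D * l + D * α / 2) + u) ≤ 4 * ρ := by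
      have := mul_le_mul_of_nonneg_left h2 ht0
      linarith
    have h5 : 0 ≤ t * (2 * (D * l + D * α / 2) + u) := mul_nonneg ht0 h3
    have h6 : |y - t * (2 * (D * l + D * α / 2) + u)| ≤ 6 * ρ := by
      have := abs_le.1 hy
      exact abs_le.2 ⟨by linarith, by linarith⟩
    calc _ ≤ δ * (6 * ρ) := mul_le_mul hu1 h6 (abs_nonneg _) (hu0.trans hu1)
      _ ≤ 1 / 2 := by linarith
  exact (abs_add_le _ _).trans (by linarith)

/-- the properties of one wave-packet block -/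
def Pc (d : ℕ) (C ρ R : ℝ) (S : Fin (d + 1) → Set ℝ) : Prop :=
  (∀ i, MeasurableSet (S i)) ∧ (∀ i, volume (S i) ≠ ⊤) ∧ (∀ i, 0 < volume.real (S i)) ∧
  (∀ i, ∀ η ∈ S i, η ^ 2 ≤ 4 * R ^ 2) ∧
  (∀ ξ ∈ Set.pi Set.univ S, R ^ 2 ≤ nsq ξ ∧ nsq ξ < 4 * R ^ 2) ∧
  (∃ θ, 1 / 2 ≤ θ ∧ θ ≤ R ∧ S 0 = Set.Ico R (R + θ)) ∧
  ((1 + 4 * R ^ 2) ^ (((d + 1 : ℕ) : ℝ) / (2 * (((d + 1 : ℕ) : ℝ) + 1)))
    ≤ C * ρ ^ (((d : ℝ) + 1) ^ 2 / (d + 2)) * ∏ i, volume.real (S i)) ∧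
  (∀ y : Fin (d + 1) → ℝ, (∀ i, ρ ≤ y i ∧ y i ≤ 2 * ρ) → ∃ t, ρ / (2 * R) ≤ t ∧ t ≤ 2 * ρ / R ∧
    ∀ i, ∃ γ : ℝ, ∀ η ∈ S i, ∃ z : ℤ, |y i * η - t * η ^ 2 - γ - 2 * Real.pi * z| ≤ 1)

/-- the constant B -/
def Bc (d : ℕ) : ℝ := 16 ^ (d + 1) * ((d : ℝ) + 1) ^ 2

lemma rp_bd (d : ℕ) (ρ P : ℝ) (hρ : 0 < ρ) (hρ1 : ρ ≤ 1) (hP : 1 ≤ P) :
    (1 + 4 * (P ^ (2 * (d + 2)) / ρ) ^ 2) ^ (((d + 1 : ℕ) : ℝ) / (2 * (((d + 1 : ℕ) : ℝ) + 1)))
      ≤ 5 * (P ^ (2 * (d + 1)) * (ρ ^ (((d : ℝ) + 1) ^ 2 / (d + 2)) / ρ ^ (d + 1))) := by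
  set s : ℝ := ((d + 1 : ℕ) : ℝ) / (2 * (((d + 1 : ℕ) : ℝ) + 1)) with hs
  have hd : (0 : ℝ) ≤ d := Nat.cast_nonneg d
  have hs0 : 0 ≤ s := by positivity
  have hs1 : s ≤ 1 := by
    rw [hs, div_le_one (by positivity)]; push_cast; linarith
  have hP0 : 0 < P := by linarith
  set R := P ^ (2 * (d + 2)) / ρ with hR
  have hR1 : 1 ≤ R := by
    rw [hR, le_div_iff₀ hρ]
    have := one_le_pow₀ (n := 2 * (d + 2)) hP
    linarith
  have h1 : 1 + 4 * R ^ 2 ≤ 5 * R ^ 2 := by nlinarith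
  have h2 : (1 + 4 * R ^ 2) ^ s ≤ (5 * R ^ 2) ^ s := Real.rpow_le_rpow (by positivity) h1 hs0
  have h3 : (5 * R ^ 2) ^ s = 5 ^ s * (R ^ 2) ^ s := Real.mul_rpow (by norm_num) (by positivity)
  have h4 : (5 : ℝ) ^ s ≤ 5 := by
    simpa using Real.rpow_le_rpow_of_exponent_le (by norm_num : (1 : ℝ) ≤ 5) hs1
  have h5 : (R ^ 2) ^ s = P ^ (2 * (d + 1)) * (ρ ^ (((d : ℝ) + 1) ^ 2 / (d + 2)) / ρ ^ (d + 1)) := by
    rw [hR, div_pow, Real.div_rpow (by positivity) (by positivity), ← pow_mul,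
      ← Real.rpow_natCast P, ← Real.rpow_mul hP0.le, ← Real.rpow_natCast ρ 2,
      ← Real.rpow_mul hρ.le, ← Real.rpow_natCast P, ← Real.rpow_natCast ρ (d + 1),
      ← Real.rpow_sub hρ, div_eq_mul_inv, ← Real.rpow_neg hρ.le]
    congr 2
    · rw [hs]; push_cast; field_simp; ring
    · rw [hs]; push_cast; field_simp; ring
  rw [← h5]
  exact h2.trans (h3 ▸ mul_le_mul_of_nonneg_right h4 (by positivity))

lemma Bc_ge (d : ℕ) : (d : ℝ) + 1 ≤ Bc d ∧ 16 ≤ Bc d := by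
  have hd : (1 : ℝ) ≤ (d : ℝ) + 1 := by linarith [Nat.cast_nonneg (α := ℝ) d]
  have h1 : (16 : ℝ) ≤ 16 ^ (d + 1) := le_self_pow₀ (by norm_num) (by omega)
  have h2 : (d : ℝ) + 1 ≤ ((d : ℝ) + 1) ^ 2 := le_self_pow₀ hd (by omega)
  unfold Bc
  constructor <;> nlinarith

lemma par1 {d ρ B Q P : ℝ} (hd : 0 ≤ d) (hρ : 0 < ρ) (hρ1 : ρ ≤ 1) (hB1 : d + 1 ≤ B)
    (hB2 : 16 ≤ B) (hP : B ≤ P) (hQP : P * P ≤ Q) :
    1 / 2 ≤ Q / (2 * B * ρ) ∧ Q / (2 * B * ρ) ≤ Q ^ 2 / ρ / 2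
      ∧ 1 / (12 * ρ) ≤ Q ^ 2 / ρ / ((d + 1) * P) / 2 ∧ B * ρ / Q ≤ ρ := by
  have hB0 : 0 < B := by linarith
  have hP0 : 0 < P := by linarith
  have hPQ : P ≤ Q := by nlinarith
  have hQ0 : 0 < Q := by linarith
  refine ⟨?_, ?_, ?_, ?_⟩
  · rw [le_div_iff₀ (by positivity)]
    have : B * ρ ≤ B := mul_le_of_le_one_right hB0.le hρ1
    linarith
  · rw [div_div, div_le_div_iff₀ (by positivity) (by positivity)]
    have h1 : 1 ≤ Q * B := by nlinarith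
    have h2 := mul_le_mul_of_nonneg_left h1 (by positivity : 0 ≤ Q * ρ * 2)
    nlinarith
  · rw [div_div, div_div, div_le_div_iff₀ (by positivity) (by positivity)]
    have h1 : (d + 1) * P ≤ P * P := mul_le_mul_of_nonneg_right (by linarith) hP0.le
    have h2 : Q ≤ Q ^ 2 := le_self_pow₀ (by linarith) (by omega)
    have h3 : (d + 1) * P ≤ Q ^ 2 := by linarith
    have h4 := mul_le_mul_of_nonneg_left h3 hρ.le
    have h5 : 0 ≤ ρ * Q ^ 2 := by positivity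
    linarith
  · rw [div_le_iff₀ hQ0]
    have : B ≤ Q := hP.trans hPQ
    nlinarith

lemma volid (d : ℕ) {ρ B P X : ℝ} (hρ : 0 < ρ) (hB : 0 < B) :
    5 * (P ^ (2 * (d + 1)) * (X / ρ ^ (d + 1)))
      = 10 * B * 12 ^ d * X * (P ^ (d + 2) / (2 * B * ρ) * (P * (1 / (12 * ρ))) ^ d) := by
  rw [mul_pow, div_pow, mul_pow, one_pow]
  field_simp
  ring

lemma win (d : ℕ) {ρ P : ℝ} (hρ : 0 < ρ) (hP : 0 < P) :
    16 * ((P ^ (d + 2)) ^ 2 / ρ) / ((P ^ (d + 2)) ^ 2 / ρ / ((d + 1) * P)) ^ 2 * (16 * P) ^ d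
      = Bc d * ρ / P ^ (d + 2) := by
  have hd : (0 : ℝ) < (d : ℝ) + 1 := by positivity
  rw [Bc, mul_pow]
  field_simp
  ring

lemma nsq_bd (d : ℕ) {R θ : ℝ} (hR : 0 < R) (hθ : θ ≤ R / 2) (ξ : Fin (d + 1) → ℝ)
    (h0 : ξ 0 ∈ Set.Ico R (R + θ)) (h1 : ∀ i : Fin d, ξ i.succ ^ 2 ≤ (R / (d + 1)) ^ 2) :
    R ^ 2 ≤ nsq ξ ∧ nsq ξ < 4 * R ^ 2 := by
  have hd : (0 : ℝ) ≤ d := Nat.cast_nonneg d
  have h3 : ∑ i : Fin d, ξ i.succ ^ 2 ≤ R ^ 2 := by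
    refine (Finset.sum_le_sum fun i _ => h1 i).trans ?_
    simp only [Finset.sum_const, Finset.card_univ, Fintype.card_fin, nsmul_eq_mul]
    rw [div_pow, mul_div_assoc', div_le_iff₀ (by positivity)]
    have : (d : ℝ) ≤ (d + 1) ^ 2 := by nlinarith
    nlinarith [mul_le_mul_of_nonneg_right this (sq_nonneg R)]
  have h4 : 0 ≤ ∑ i : Fin d, ξ i.succ ^ 2 := Finset.sum_nonneg fun i _ => sq_nonneg _
  have h5 : R ^ 2 ≤ ξ 0 ^ 2 := pow_le_pow_left₀ hR.le h0.1 2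
  have h6 : ξ 0 ^ 2 ≤ (3 / 2 * R) ^ 2 :=
    pow_le_pow_left₀ (by linarith [h0.1]) (by linarith [h0.2]) 2
  unfold nsq
  rw [Fin.sum_univ_succ]
  have h7 : 0 < R ^ 2 := by positivity
  constructor <;> linarith

lemma slab_phase {y t R θ Δ σ : ℝ} (hl : 0 ≤ 2 * t * R - y) (hu : 2 * t * R - y ≤ Δ)
    (ht0 : 0 ≤ t) (ht : t ≤ σ) (h1 : θ * Δ ≤ 1 / 2) (h2 : σ * θ ^ 2 ≤ 1 / 2) :
    ∃ γ : ℝ, ∀ η ∈ Set.Ico R (R + θ), ∃ z : ℤ,
      |y * η - t * η ^ 2 - γ - 2 * Real.pi * z| ≤ 1 := by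
  refine ⟨y * R - t * R ^ 2, fun η hη => ⟨0, ?_⟩⟩
  have hid2 : y * η - t * η ^ 2 - (y * R - t * R ^ 2) - 2 * Real.pi * ((0 : ℤ) : ℝ)
      = -((η - R) * (2 * t * R - y) + t * (η - R) ^ 2) := by push_cast; ring
  have hu0 : 0 ≤ η - R := by linarith [hη.1]
  have hu1 : η - R ≤ θ := by linarith [hη.2]
  rw [hid2, abs_neg, abs_of_nonneg (by positivity)]
  have h3 : (η - R) * (2 * t * R - y) ≤ θ * Δ := mul_le_mul hu1 hu hl (hu0.trans hu1)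
  have h4 : t * (η - R) ^ 2 ≤ σ * θ ^ 2 :=
    mul_le_mul ht (pow_le_pow_left₀ hu0 hu1 2) (sq_nonneg _) (ht0.trans ht)
  linarith

lemma tsel (d K : ℕ) (hK : 0 < K) {R D : ℝ} (hR : 0 < R) (hD : 0 < D) (y : Fin (d + 1) → ℝ)
    (hy0 : 0 ≤ y 0) : ∃ (j : ℕ) (t : ℝ), t * D ^ 2 = 2 * Real.pi * j ∧ 0 ≤ 2 * t * R - y 0 ∧
      2 * t * R - y 0 ≤ 16 * R / D ^ 2 * (K : ℝ) ^ d ∧ ∀ i : Fin d, ∃ m : ℤ,
        |D * y i.succ / (2 * Real.pi) - j * (1 / (K : ℝ) ^ ((i : ℕ) + 1)) - m| ≤ 1 / K := by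
  have hpi := Real.pi_pos
  obtain ⟨j0, hj1, hj2⟩ : ∃ j0 : ℕ, y 0 * D ^ 2 / (4 * Real.pi * R) ≤ j0 ∧
      (j0 : ℝ) < y 0 * D ^ 2 / (4 * Real.pi * R) + 1 :=
    ⟨_, Nat.le_ceil _, Nat.ceil_lt_add_one (by positivity)⟩
  obtain ⟨js, hjs, hz⟩ := digit K hK (fun i => (if h : i < d then D * y (Fin.succ ⟨i, h⟩)
    / (2 * Real.pi) else 0) - j0 * (1 / (K : ℝ) ^ (i + 1))) d
  have hjs' : (js : ℝ) + 1 ≤ (K : ℝ) ^ d := by exact_mod_cast hjs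
  have hc : 0 < 4 * Real.pi * R / D ^ 2 := by positivity
  have hid : 2 * (2 * Real.pi * ((j0 + js : ℕ) : ℝ) / D ^ 2) * R - y 0
      = 4 * Real.pi * R / D ^ 2 * (j0 + js - y 0 * D ^ 2 / (4 * Real.pi * R)) := by
    push_cast; field_simp; ring
  refine ⟨j0 + js, 2 * Real.pi * ((j0 + js : ℕ) : ℝ) / D ^ 2, by field_simp, ?_, ?_, fun i => ?_⟩
  · rw [hid]
    exact mul_nonneg hc.le (by linarith [Nat.cast_nonneg (α := ℝ) js])
  · rw [hid]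
    have h1 : (j0 : ℝ) + js - y 0 * D ^ 2 / (4 * Real.pi * R) ≤ (K : ℝ) ^ d := by linarith
    have h2 : 4 * Real.pi * R / D ^ 2 ≤ 16 * R / D ^ 2 :=
      div_le_div_of_nonneg_right (mul_le_mul_of_nonneg_right (by linarith [Real.pi_le_four])
        hR.le) (by positivity)
    exact (mul_le_mul_of_nonneg_left h1 hc.le).trans
      (mul_le_mul_of_nonneg_right h2 (by positivity))
  · obtain ⟨m, hm⟩ := hz i i.2
    simp only [Fin.is_lt, dif_pos, Fin.eta] at hm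
    refine ⟨m, ?_⟩
    have h1 : D * y i.succ / (2 * Real.pi) - ((j0 + js : ℕ) : ℝ) * (1 / (K : ℝ) ^ ((i : ℕ) + 1)) - m
        = D * y i.succ / (2 * Real.pi) - j0 * (1 / (K : ℝ) ^ ((i : ℕ) + 1))
          - js / (K : ℝ) ^ ((i : ℕ) + 1) - m := by
      push_cast; ring
    rw [h1]; exact hm

theorem piece (d : ℕ) (ρ : ℝ) (P : ℕ) (hρ : 0 < ρ) (hρ1 : ρ ≤ 1) (hP : Bc d ≤ P) :
    ∃ S, Pc d (10 * Bc d * 12 ^ d) ρ ((P : ℝ) ^ (2 * (d + 2)) / ρ) S := by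
  obtain ⟨hB1, hB2⟩ := Bc_ge d
  have hd : (0 : ℝ) ≤ d := Nat.cast_nonneg d
  have hP1 : (1 : ℝ) ≤ P := by linarith
  have hP0 : (0 : ℝ) < P := by linarith
  have hPn : 0 < P := by exact_mod_cast hP0
  have hB0 : 0 < Bc d := by linarith
  have hQP : (P : ℝ) * P ≤ (P : ℝ) ^ (d + 2) := by
    rw [← sq]; exact pow_le_pow_right₀ hP1 (by omega)
  have hRQ : (P : ℝ) ^ (2 * (d + 2)) = ((P : ℝ) ^ (d + 2)) ^ 2 := by rw [← pow_mul, mul_comm]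
  have hrp := (rp_bd d ρ P hρ hρ1 hP1).trans (volid d hρ hB0).le
  rw [hRQ] at hrp ⊢
  obtain ⟨hθ1, hθ2, hδD, hu2⟩ := par1 hd hρ hρ1 hB1 hB2 hP hQP
  have hwin := win d hρ hP0
  have hQ0 : 0 < (P : ℝ) ^ (d + 2) := by positivity
  generalize (P : ℝ) ^ (d + 2) = Q at *
  have e1 : Q / (2 * Bc d * ρ) * (Bc d * ρ / Q) ≤ 1 / 2 := by apply le_of_eq; field_simp
  have e2 : 2 * ρ / (Q ^ 2 / ρ) * (Q / (2 * Bc d * ρ)) ^ 2 ≤ 1 / 2 := by
    have h4 : 2 * ρ / (Q ^ 2 / ρ) * (Q / (2 * Bc d * ρ)) ^ 2 = 1 / (2 * Bc d ^ 2) := by field_simp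
    rw [h4]
    exact one_div_le_one_div_of_le (by norm_num) (by nlinarith)
  have e3 : 1 / (12 * ρ) * ρ ≤ 1 / 12 := by apply le_of_eq; field_simp
  have hR0 : 0 < Q ^ 2 / ρ := by positivity
  have hδ0 : 0 < 1 / (12 * ρ) := by positivity
  generalize Q ^ 2 / ρ = R at *
  generalize Q / (2 * Bc d * ρ) = θ at *
  generalize 1 / (12 * ρ) = δ at *
  generalize Bc d * ρ / Q = Δ at *
  have hDP : R / ((d + 1) * P) * P = R / (d + 1) := by field_simp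
  have hD0 : 0 < R / ((d + 1) * P) := by positivity
  generalize R / ((d + 1) * P) = D at *
  have hθ0 : 0 < θ := by linarith
  have hK0 : 0 < 16 * P := by omega
  have hK1 : (1 : ℝ) ≤ (16 * P : ℕ) := by exact_mod_cast hK0
  have hK2 : ((16 * P : ℕ) : ℝ) = 16 * P := by push_cast; ring
  rw [← hK2] at hwin
  generalize 16 * P = K at *
  have hα0 : ∀ i : ℕ, 0 ≤ 1 / (K : ℝ) ^ (i + 1) := fun i => by positivity
  have hβ0 : ∀ i : ℕ, 0 ≤ D * (1 / (K : ℝ) ^ (i + 1)) / 2 := fun i => by positivity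
  have hα1 : ∀ i : ℕ, D * (1 / (K : ℝ) ^ (i + 1)) / 2 + δ ≤ D := fun i => by
    have h1 : 1 / (K : ℝ) ^ (i + 1) ≤ 1 := (div_le_one (by positivity)).2 (one_le_pow₀ hK1)
    have := mul_le_of_le_one_right hD0.le h1
    linarith
  have hDR : D * P ≤ R := by
    rw [hDP]; exact div_le_self hR0.le (by linarith)
  have hδ1 : δ ≤ D := by linarith
  have hv : ∀ β, volume.real (cell D β δ P) = P * δ := fun β => by
    rw [Measure.real, cell_vol _ _ _ _ hδ0.le hδ1, ENNReal.toReal_ofReal (by positivity)]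
  refine ⟨Fin.cons (Set.Ico R (R + θ)) fun i : Fin d => cell D (D * (1 / (K : ℝ) ^ ((i : ℕ) + 1)) / 2) δ P,
    ?_, ?_, ?_, ?_, ?_, ⟨θ, hθ1, by linarith, rfl⟩, ?_, ?_⟩
  · refine Fin.cases measurableSet_Ico fun i => ?_
    exact cell_meas _ _ _ _
  · refine Fin.cases ?_ fun i => ?_
    · simp
    · simp only [Fin.cons_succ]
      rw [cell_vol _ _ _ _ hδ0.le hδ1]; exact ENNReal.ofReal_ne_top
  · refine Fin.cases ?_ fun i => ?_
    · simp only [Fin.cons_zero, Real.volume_real_Ico, add_sub_cancel_left]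
      exact lt_max_of_lt_left hθ0
    · simp only [Fin.cons_succ, hv]
      positivity
  · refine Fin.cases ?_ fun i => ?_
    · intro η hη
      simp only [Fin.cons_zero, Set.mem_Ico] at hη
      have h1 : η ≤ 2 * R := by linarith [hη.2]
      have := pow_le_pow_left₀ (by linarith [hη.1]) h1 2
      linarith
    · intro η hη
      simp only [Fin.cons_succ] at hη
      have hb := cell_bd hD0.le (hβ0 i) (hα1 i) hη
      have := pow_le_pow_left₀ hb.1 (hb.2.trans hDR) 2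
      linarith [sq_nonneg R]
  · intro ξ hξ
    refine nsq_bd d hR0 hθ2 ξ (hξ 0 (Set.mem_univ _)) fun i => ?_
    have h2 := hξ i.succ (Set.mem_univ _)
    simp only [Fin.cons_succ] at h2
    have hb := cell_bd hD0.le (hβ0 i) (hα1 i) h2
    exact pow_le_pow_left₀ hb.1 (hDP ▸ hb.2) 2
  · refine hrp.trans (le_of_eq ?_)
    rw [Fin.prod_univ_succ]
    simp only [Fin.cons_zero, Fin.cons_succ, hv, Finset.prod_const, Finset.card_univ,
      Fintype.card_fin, Real.volume_real_Ico, add_sub_cancel_left, max_eq_left hθ0.le]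
  · intro y hy
    obtain ⟨j, t, htD, hl, hu, hz⟩ := tsel d K hK0 hR0 hD0 y (hρ.le.trans (hy 0).1)
    rw [hwin] at hu
    have ht1 : ρ / (2 * R) ≤ t := by
      rw [div_le_iff₀ (by positivity)]; linarith [(hy 0).1]
    have ht2 : t * R ≤ 2 * ρ := by linarith [(hy 0).2]
    have ht0 : 0 ≤ t := le_trans (by positivity) ht1
    refine ⟨t, ht1, (le_div_iff₀ hR0).2 ht2, ?_⟩
    refine Fin.cases ?_ fun i => ?_
    · exact slab_phase hl hu ht0 ((le_div_iff₀ hR0).2 ht2) e1 e2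
    · obtain ⟨m, hm⟩ := hz i
      simp only [Fin.cons_succ]
      have hpi := Real.pi_pos
      refine cell_phase (w := D * y i.succ / (2 * Real.pi)) (m := m) (ρ := ρ) hD0.le (hα0 i)
        (hα1 i) htD (by field_simp) (hK2 ▸ hm) hPn ?_ ht0 ?_ e3
      · rw [abs_of_nonneg (hρ.le.trans (hy _).1)]; exact (hy _).2
      · exact (mul_le_mul_of_nonneg_left hDR ht0).trans ht2

end Vale.Agent.P076
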